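import Crest.Agent.PLift.Adj

set_option autoImplicit false
set_option linter.unusedSectionVars false
set_option linter.unusedDecidableInType false

namespace Crest.Agent.PLift

open Crest.WLRefine Crest.WLRefine.ParityLift Finset

variable {t : ℕ} {C : ChoiceSystem t}

theorem isPair_comm (h : Helper t) (i j : Fin t) : IsPair h i j ↔ IsPair h j i := by
  unfold IsPair; exact or_comm

private theorem edge_hb {dt : Dat C} {u v : MV C} (hlt : u.1 < v.1)
    (he : C.lamL u.1 v.1 u.2 = C.lamR u.1 v.1 v.2) (h : Helper t) (hp : IsPair h u.1 v.1) :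
    hb dt v h = dt.r h + hb dt u h := by
  obtain ⟨i, d⟩ := u
  obtain ⟨j, e⟩ := v
  obtain ⟨⟨a, b, c⟩, hab, hca, hcb⟩ := h
  simp only at hlt he hab hca hcb
  have hp' : a = i ∧ b = j := by
    rcases hp with hp | hp
    · exact hp
    · exfalso
      simp only at hp
      obtain ⟨h1, h2⟩ := hp
      subst h1; subst h2
      exact absurd hab (not_lt.2 hlt.le)
  obtain ⟨h1, h2⟩ := hp'
  subst h1; subst h2
  have hne : b ≠ a := hlt.ne'
  unfold hb
  simp only [hne, dite_false, dite_true]
  congr 2
  exact he.symm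

private theorem edge_main {dt : Dat C} {D : Fin t × Fin t} (hN : NS dt D) {u v : MV C}
    (h : mainAgree C u v = true) (hD : ¬ OverD C D (Sum.inl u) (Sum.inl v)) :
    sv dt (Sum.inl u) (Sum.inl v.1) = sv dt (Sum.inl v) (Sum.inl u.1) := by
  unfold mainAgree at h
  rw [decide_eq_true_iff] at h
  obtain ⟨hlt, he⟩ := h
  have hed := hN.ed u.1 v.1 hlt.ne
  rw [if_neg] at hed
  · have hf : (univ.filter fun h : Helper t => IsPair h v.1 u.1) =
        univ.filter fun h : Helper t => IsPair h u.1 v.1 := by
      ext h; simp only [mem_filter, mem_univ, true_and]; exact isPair_comm h v.1 u.1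
    have hs : ∑ h ∈ univ.filter (fun h : Helper t => IsPair h u.1 v.1), hb dt v h =
        ∑ h ∈ univ.filter (fun h : Helper t => IsPair h u.1 v.1), (dt.r h + hb dt u h) := by
      refine Finset.sum_congr rfl fun h hh => ?_
      rw [mem_filter] at hh
      exact edge_hb hlt he h hh.2
    change dt.A u.1 v.1 + ∑ h ∈ univ.filter (fun h : Helper t => IsPair h u.1 v.1), hb dt u h =
      dt.A v.1 u.1 + ∑ h ∈ univ.filter (fun h : Helper t => IsPair h v.1 u.1), hb dt v h
    rw [hf, hs, Finset.sum_add_distrib]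
    have h2 : (2 : ZMod 2) = 0 := by decide
    linear_combination hed - (dt.A v.1 u.1 +
      ∑ h ∈ univ.filter (fun h : Helper t => IsPair h u.1 v.1), dt.r h) * h2
  · intro hc
    apply hD
    rcases hc with ⟨h1, h2⟩ | ⟨h1, h2⟩
    · exact Or.inl ⟨by simp only [typeOf, h1], by simp only [typeOf, h2]⟩
    · exact Or.inr ⟨by simp only [typeOf, h1], by simp only [typeOf, h2]⟩

private theorem edge_helper {dt : Dat C} {u : MV C}
    {hq : Σ h : Helper t, Fin (C.lab h.1.1 h.1.2.1)}
    (h : helperAgree C u hq = true) :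
    sv dt (Sum.inl u) (Sum.inr hq.1) = sv dt (Sum.inr hq) (Sum.inl u.1) := by
  unfold helperAgree at h
  rw [decide_eq_true_iff] at h
  change hb dt u hq.1 = if u.1 = hq.1.1.1 then dt.p hq.1 hq.2
      else if u.1 = hq.1.1.2.1 then dt.r hq.1 + dt.p hq.1 hq.2 else dt.r hq.1
  have h12 : hq.1.1.1 ≠ hq.1.1.2.1 := hq.1.2.1.ne
  rcases h with ⟨e, he⟩ | ⟨e, he⟩ | e
  · rw [if_pos e]
    unfold hb
    rw [dif_pos e]
    congr 1
    exact he.symm
  · have hne : u.1 ≠ hq.1.1.1 := fun h' => h12 (h'.symm.trans e)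
    rw [if_neg hne, if_pos e]
    unfold hb
    rw [dif_neg hne, dif_pos e]
    congr 2
    exact he.symm
  · have hne : u.1 ≠ hq.1.1.1 := fun h' => hq.1.2.2.1 (e.symm.trans h')
    have hne' : u.1 ≠ hq.1.1.2.1 := fun h' => hq.1.2.2.2 (e.symm.trans h')
    rw [if_neg hne, if_neg hne']
    unfold hb
    rw [dif_neg hne, dif_neg hne', if_pos e]

/-- CHUNK R290-P-EDGE. The two bits of a base edge agree except over the defect pair.
PROOF. main `u = (i,d)`, main `v = (j,e)`, say `mainAgree C u v` (`i < j`, `lamL i j d = lamR i j e =: q`):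
`sv u (inl j) + sv v (inl i) = A i j + A j i + ∑_{h : IsPair h i j} (hb u h + hb v h)` and for such `h`
necessarily `h.1.1 = i`, `h.1.2.1 = j` (as `h.1.1 < h.1.2.1`), `hb u h = p h q`, `hb v h = r h + p h q`,
so the sum is `A i j + A j i + ∑ r h = 0` by `NS.ed` (not over `D`).  Main - helper `(h,q)`: the three cases of
`helperAgree`: `hb u h = sv (h,q) (inl i)` directly from the definitions. -/
theorem sv_edge {dt : Dat C} {D : Fin t × Fin t} (hN : NS dt D) {u v : BV C}
    (h : bAdj C u v = true) (hD : ¬ OverD C D u v) :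
    sv dt u (typeOf C v) = sv dt v (typeOf C u) := by
  rcases u with u | u <;> rcases v with v | v
  · have h' : (mainAgree C u v || mainAgree C v u) = true := h
    rw [Bool.or_eq_true] at h'
    rcases h' with h' | h'
    · exact edge_main hN h' hD
    · refine (edge_main hN h' ?_).symm
      intro hc
      apply hD
      rcases hc with hc | hc
      · exact Or.inr ⟨hc.2, hc.1⟩
      · exact Or.inl ⟨hc.2, hc.1⟩
  · exact edge_helper h
  · exact (edge_helper h).symm
  · exact absurd h (by simp [bAdj])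

end Crest.Agent.PLift
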