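import Crest.Agent.PLift.Par
import Crest.Agent.PLift.Edge

set_option autoImplicit false
set_option linter.unusedSectionVars false
set_option linter.unusedDecidableInType false

namespace Crest.Agent.PLift

open Crest.WLRefine Crest.WLRefine.ParityLift Finset

variable {t : ℕ} {C : ChoiceSystem t}

/-- `b` and `b'` differ exactly at main type 0 -/
def ParDiff (b b' : TV t → Bool) : Prop := ∀ a, bz (b a) + bz (liftStarParity t a) = bz (b' a)

theorem parDiff_0s : ParDiff (lift0Parity t) (liftStarParity t) := by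
  intro a; simp [lift0Parity]

theorem parDiff_s0 : ParDiff (liftStarParity t) (lift0Parity t) := by
  intro a; rw [zmod2_add_self]; simp [lift0Parity]

/-- translation of the tags -/
def actFun {b b' : TV t → Bool} (hb : ParDiff b b') {dt : Dat C} {D : Fin t × Fin t}
    (hN : NS dt D) (x : LiftV C b) : LiftV C b' :=
  ⟨⟨x.1.1, fun a => xor (x.1.2 a) (zb (sv dt x.1.1 a.1))⟩, by
    rw [card_mod_two_iff]
    have h1 := (card_mod_two_iff _ _).1 x.2
    simp only [bz_xor, bz_zb, Finset.sum_add_distrib]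
    rw [sv_par hN, ← hb, ← h1]⟩

@[simp] theorem actFun_base {b b' : TV t → Bool} (hb : ParDiff b b') {dt : Dat C}
    {D : Fin t × Fin t} (hN : NS dt D) (x : LiftV C b) : (actFun hb hN x).1.1 = x.1.1 := rfl

/-- CHUNK R290-P-ACT -/
theorem actFun_actFun {b b' : TV t → Bool} (hb : ParDiff b b') (hb' : ParDiff b' b) {dt : Dat C}
    {D : Fin t × Fin t} (hN : NS dt D) (x : LiftV C b) : actFun hb' hN (actFun hb hN x) = x := by
  refine Subtype.ext (Sigma.ext rfl (heq_of_eq (funext fun a => ?_)))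
  show xor (xor (x.1.2 a) (zb (sv dt x.1.1 a.1))) (zb (sv dt x.1.1 a.1)) = x.1.2 a
  rw [Bool.xor_assoc, Bool.xor_self, Bool.xor_false]

/-- CHUNK R290-P-ACT: depends only on the bits at the base vertex -/
theorem actFun_congr {b b' : TV t → Bool} (hb : ParDiff b b') {dt dt' : Dat C}
    {D D' : Fin t × Fin t} (hN : NS dt D) (hN' : NS dt' D') (x : LiftV C b)
    (h : ∀ a, tAdj (typeOf C x.1.1) a = true → sv dt x.1.1 a = sv dt' x.1.1 a) :
    actFun hb hN x = actFun hb hN' x := by
  refine Subtype.ext (Sigma.ext rfl (heq_of_eq (funext fun a => ?_)))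
  show xor (x.1.2 a) (zb (sv dt x.1.1 a.1)) = xor (x.1.2 a) (zb (sv dt' x.1.1 a.1))
  rw [h a.1 a.2]

/-- CHUNK R290-P-ACT: adjacency is preserved off the defect (`liftAdj_iff`, `sv_edge`) -/
theorem actFun_adj {b b' : TV t → Bool} (hb : ParDiff b b') {dt : Dat C}
    {D : Fin t × Fin t} (hN : NS dt D) (x y : LiftV C b)
    (h : bAdj C x.1.1 y.1.1 = true → ¬ OverD C D x.1.1 y.1.1) :
    liftAdj C b' (actFun hb hN x) (actFun hb hN y) = liftAdj C b x y := by
  have key : ∀ c1 c2 s1 s2 : Bool, s1 = s2 → ((xor c1 s1 = xor c2 s2) ↔ (c1 = c2)) := by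
    decide
  rw [Bool.eq_iff_iff, liftAdj_iff, liftAdj_iff]
  constructor
  · rintro ⟨h1, h2⟩
    refine ⟨h1, fun h3 h4 => ?_⟩
    exact (key _ _ _ _ (congrArg zb (sv_edge hN h1 (h h1)))).1 (h2 h3 h4)
  · rintro ⟨h1, h2⟩
    refine ⟨h1, fun h3 h4 => ?_⟩
    exact (key _ _ _ _ (congrArg zb (sv_edge hN h1 (h h1)))).2 (h2 h3 h4)

/-- CHUNK R290-P-ACT: bijection assembled fibrewise: if for every base vertex `u` a near-solution
`F u` is given, `x ↦ act (F (base x)) x` is a bijection -/
theorem exists_fibre_equiv {b b' : TV t → Bool} (hb : ParDiff b b') (hb' : ParDiff b' b)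
    (F : BV C → Dat C) (Df : BV C → Fin t × Fin t) (hF : ∀ u, NS (F u) (Df u)) :
    ∃ g : LiftV C b ≃ LiftV C b', ∀ x, g x = actFun hb (hF x.1.1) x := by
  exact ⟨{ toFun := fun x => actFun hb (hF x.1.1) x
           invFun := fun y => actFun hb' (hF y.1.1) y
           left_inv := fun x => actFun_actFun hb hb' (hF x.1.1) x
           right_inv := fun y => actFun_actFun hb' hb (hF y.1.1) y }, fun _ => rfl⟩

end Crest.Agent.PLift
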