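import Crest.Agent.PLift.Defs

/-! CHUNK R290-P-ADJ (easy): elementary facts on the adjacencies. -/

set_option autoImplicit false
set_option linter.unusedSectionVars false
set_option linter.unusedDecidableInType false

namespace Crest.Agent.PLift

open Crest.WLRefine Crest.WLRefine.ParityLift Finset

variable {t : ℕ} {C : ChoiceSystem t}

theorem tAdj_symm (a b : TV t) : tAdj a b = tAdj b a := by
  rcases a with a | a <;> rcases b with b | b
  · show decide (a ≠ b) = decide (b ≠ a)
    exact decide_eq_decide.2 ne_comm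
  · rfl
  · rfl
  · rfl

theorem tAdj_irrefl (a : TV t) : tAdj a a = false := by
  rcases a with a | a
  · show decide (a ≠ a) = false
    simp
  · rfl

theorem bAdj_symm (u v : BV C) : bAdj C u v = bAdj C v u := by
  rcases u with u | u <;> rcases v with v | v
  · exact Bool.or_comm _ _
  · rfl
  · rfl
  · rfl

/-- base adjacency implies template adjacency of the types -/
theorem bAdj_tAdj {u v : BV C} (h : bAdj C u v = true) : tAdj (typeOf C u) (typeOf C v) = true := by
  have key : ∀ (p : Σ i : Fin t, Fin (C.dom i)) (q : Σ h : Helper t, Fin (C.lab h.1.1 h.1.2.1)),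
      helperAgree C p q = true →
      decide (p.1 = q.1.1.1 ∨ p.1 = q.1.1.2.1 ∨ p.1 = q.1.1.2.2) = true := by
    intro p q hq
    rw [helperAgree, decide_eq_true_iff] at hq
    rw [decide_eq_true_iff]
    rcases hq with ⟨e, _⟩ | ⟨e, _⟩ | e
    · exact Or.inl e
    · exact Or.inr (Or.inl e)
    · exact Or.inr (Or.inr e)
  rcases u with u | u <;> rcases v with v | v
  · show decide (u.1 ≠ v.1) = true
    rw [decide_eq_true_iff]
    have h' : (mainAgree C u v || mainAgree C v u) = true := h
    rw [Bool.or_eq_true, mainAgree, mainAgree, decide_eq_true_iff, decide_eq_true_iff] at h'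
    rcases h' with ⟨e, _⟩ | ⟨e, _⟩
    · exact ne_of_lt e
    · exact (ne_of_lt e).symm
  · exact key u v h
  · exact key v u h
  · exact absurd h (by show ¬ (false = true); simp)

theorem liftAdj_symm (b : TV t → Bool) (x y : LiftV C b) : liftAdj C b x y = liftAdj C b y x := by
  unfold liftAdj
  refine decide_eq_decide.2 ⟨?_, ?_⟩
  · rintro ⟨h, h', hb, he⟩
    exact ⟨h', h, by rw [bAdj_symm]; exact hb, he.symm⟩
  · rintro ⟨h, h', hb, he⟩
    exact ⟨h', h, by rw [bAdj_symm]; exact hb, he.symm⟩

theorem liftAdj_irrefl (b : TV t → Bool) (x : LiftV C b) : liftAdj C b x x = false := by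
  unfold liftAdj
  rw [decide_eq_false_iff_not]
  rintro ⟨h, _⟩
  rw [tAdj_irrefl] at h
  exact absurd h (by simp)

theorem isSimple_lift (b : TV t → Bool) : IsSimple (asMatrix (liftAdj C b)) := by
  exact ⟨fun v w => liftAdj_symm b _ _, fun v => liftAdj_irrefl b _⟩

/-- adjacency of the lift without the dependent proofs: it suffices to know one value -/
theorem liftAdj_iff (b : TV t → Bool) (x y : LiftV C b) :
    liftAdj C b x y = true ↔ bAdj C x.1.1 y.1.1 = true ∧
      ∀ (h : tAdj (typeOf C x.1.1) (typeOf C y.1.1) = true)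
        (h' : tAdj (typeOf C y.1.1) (typeOf C x.1.1) = true),
        x.1.2 ⟨typeOf C y.1.1, h⟩ = y.1.2 ⟨typeOf C x.1.1, h'⟩ := by
  unfold liftAdj
  rw [decide_eq_true_iff]
  constructor
  · rintro ⟨h, h', hb, he⟩
    exact ⟨hb, fun _ _ => he⟩
  · rintro ⟨hb, H⟩
    have h1 := bAdj_tAdj hb
    have h2 : tAdj (typeOf C y.1.1) (typeOf C x.1.1) = true := by rw [tAdj_symm]; exact h1
    exact ⟨h1, h2, hb, H h1 h2⟩

end Crest.Agent.PLift
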