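import Crest.Agent.PLift.Defs

set_option autoImplicit false
set_option linter.unusedSectionVars false

namespace Crest.Agent.PLift

open Crest.WLRefine Crest.WLRefine.ParityLift Finset Crest.Agent.WLD

variable {n m t k : ℕ}

/-- even tags are determined by the other coordinates -/
def evenEquiv {ι : Type} [Fintype ι] [DecidableEq ι] (i0 : ι) :
    {f : ι → Bool // ∑ a, bz (f a) = 0} ≃ ({a : ι // a ≠ i0} → Bool) where
  toFun f a := f.1 a.1
  invFun g := ⟨fun a => if h : a = i0 then zb (∑ a : {a : ι // a ≠ i0}, bz (g a)) else g ⟨a, h⟩, by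
    rw [Fintype.sum_eq_add_sum_subtype_ne _ i0]
    beta_reduce
    rw [dif_pos rfl, bz_zb]
    have h : ∑ a : {a : ι // a ≠ i0}, bz (if h : a.1 = i0 then
        zb (∑ a : {a : ι // a ≠ i0}, bz (g a)) else g ⟨a.1, h⟩) =
        ∑ a : {a : ι // a ≠ i0}, bz (g a) :=
      Finset.sum_congr rfl (fun a _ => by rw [dif_neg a.2])
    rw [h, zmod2_add_self]⟩
  left_inv f := by
    refine Subtype.ext (funext fun a => ?_)
    by_cases h : a = i0
    · subst h
      show (if h : a = a then zb (∑ b : {b : ι // b ≠ a}, bz (f.1 b.1)) else f.1 a) = f.1 a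
      rw [dif_pos rfl]
      apply bz_inj
      rw [bz_zb]
      have h2 := f.2
      rw [Fintype.sum_eq_add_sum_subtype_ne _ a] at h2
      calc ∑ b : {b : ι // b ≠ a}, bz (f.1 b.1)
          = (bz (f.1 a) + bz (f.1 a)) + ∑ b : {b : ι // b ≠ a}, bz (f.1 b.1) := by
            rw [zmod2_add_self, zero_add]
        _ = bz (f.1 a) + (bz (f.1 a) + ∑ b : {b : ι // b ≠ a}, bz (f.1 b.1)) := by ring
        _ = bz (f.1 a) := by rw [h2, add_zero]
    · show (if h : a = i0 then _ else f.1 a) = f.1 a
      rw [dif_neg h]
  right_inv g := by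
    funext a
    show (if h : a.1 = i0 then _ else g ⟨a.1, h⟩) = g a
    rw [dif_neg a.2]

/-- CHUNK R290-P-CARD1. even tags: half of all (nonempty index type) -/
theorem card_even_tags {ι : Type} [Fintype ι] [DecidableEq ι] [Nonempty ι] :
    Fintype.card {f : ι → Bool // (univ.filter fun a => f a = true).card % 2 = 0} =
      2 ^ (Fintype.card ι - 1) := by
  obtain ⟨i0⟩ := (inferInstance : Nonempty ι)
  have e1 : {f : ι → Bool // (univ.filter fun a => f a = true).card % 2 = 0} ≃
      {f : ι → Bool // ∑ a, bz (f a) = 0} :=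
    Equiv.subtypeEquivRight (fun f => card_mod_two_iff f false)
  rw [Fintype.card_congr (e1.trans (evenEquiv i0)), Fintype.card_fun, Fintype.card_bool]
  congr 1
  rw [Fintype.card_subtype_compl, Fintype.card_subtype_eq]

/-- CHUNK R290-P-CARD1. -/
theorem card_nbr_helper (h : Helper t) : Fintype.card (Nbr (.inr h : TV t)) = 3 := by
  rw [Fintype.card_of_subtype ({.inl h.1.1, .inl h.1.2.1, .inl h.1.2.2} : Finset (TV t))]
  · have h1 : h.1.1 ≠ h.1.2.1 := h.2.1.ne
    have h2 : h.1.1 ≠ h.1.2.2 := h.2.2.1.symm
    have h3 : h.1.2.1 ≠ h.1.2.2 := h.2.2.2.symm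
    rw [Finset.card_insert_of_notMem, Finset.card_insert_of_notMem, Finset.card_singleton]
    · simpa using h3
    · simp [h1, h2]
  · intro x
    rcases x with x | x
    · simp [tAdj]
    · simp [tAdj]

/-- pairs -/
theorem card_lt_filter (s : Finset (Fin t)) :
    (s.offDiag.filter fun p => p.1 < p.2).card = s.card.choose 2 := by
  have h1 : (s.offDiag.filter fun p => p.1 < p.2).card = (s.offDiag.filter fun p => ¬ p.1 < p.2).card := by
    refine Finset.card_nbij' Prod.swap Prod.swap ?_ ?_ (fun _ _ => rfl) (fun _ _ => rfl)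
    · intro p hp
      simp only [Finset.coe_filter, Set.mem_ofPred_eq, Finset.mem_offDiag] at hp ⊢
      exact ⟨⟨hp.1.2.1, hp.1.1, hp.1.2.2.symm⟩, not_lt.2 hp.2.le⟩
    · intro p hp
      simp only [Finset.coe_filter, Set.mem_ofPred_eq, Finset.mem_offDiag] at hp ⊢
      exact ⟨⟨hp.1.2.1, hp.1.1, hp.1.2.2.symm⟩, lt_of_le_of_ne (not_lt.1 hp.2) hp.1.2.2.symm⟩
  have h2 := Finset.card_filter_add_card_filter_not (s := s.offDiag) (fun p : Fin t × Fin t => p.1 < p.2)
  rw [Finset.offDiag_card] at h2
  rw [Nat.choose_two_right]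
  have h3 : s.card * (s.card - 1) = s.card * s.card - s.card := by
    rw [Nat.mul_sub, mul_one]
  rw [h3]
  omega

theorem card_third {a b : Fin t} (h : a ≠ b) :
    (univ.filter fun c : Fin t => c ≠ a ∧ c ≠ b).card = t - 2 := by
  have e : (univ.filter fun c : Fin t => c ≠ a ∧ c ≠ b) = univ \ {a, b} := by
    ext c; simp
  rw [e, Finset.card_sdiff_of_subset (Finset.subset_univ _), Finset.card_univ, Fintype.card_fin,
    Finset.card_pair h]

/-- helpers as pairs with a third vertex -/
def helperEquiv (t : ℕ) : Helper t ≃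
    (Σ p : {p : Fin t × Fin t // p.1 < p.2}, {c : Fin t // c ≠ p.1.1 ∧ c ≠ p.1.2}) where
  toFun h := ⟨⟨(h.1.1, h.1.2.1), h.2.1⟩, ⟨h.1.2.2, h.2.2⟩⟩
  invFun q := ⟨(q.1.1.1, q.1.1.2, q.2.1), q.1.2, q.2.2⟩
  left_inv _ := rfl
  right_inv _ := rfl

/-- CHUNK R290-P-CARD1. `C(t,2) (t-2) = 3 C(t,3)` -/
theorem card_helper : Fintype.card (Helper t) = 3 * t.choose 3 := by
  rw [Fintype.card_congr (helperEquiv t), Fintype.card_sigma]
  have h1 : ∀ p : {p : Fin t × Fin t // p.1 < p.2},
      Fintype.card {c : Fin t // c ≠ p.1.1 ∧ c ≠ p.1.2} = t - 2 := fun p => by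
    rw [Fintype.card_subtype, card_third p.2.ne]
  rw [Finset.sum_congr rfl (fun p _ => h1 p), Finset.sum_const, Finset.card_univ, smul_eq_mul]
  have h2 : Fintype.card {p : Fin t × Fin t // p.1 < p.2} = t.choose 2 := by
    rw [Fintype.card_subtype]
    have h3 := card_lt_filter (univ : Finset (Fin t))
    rw [Finset.card_univ, Fintype.card_fin] at h3
    rw [← h3]
    congr 1
    ext p
    simp only [Finset.mem_filter, Finset.mem_univ, true_and, Finset.mem_offDiag]
    exact ⟨fun h => ⟨h.ne, h⟩, fun h => h.2⟩
  rw [h2]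
  have h4 := Nat.choose_succ_right_eq t 2
  rw [← h4]
  ring

/-- CHUNK R290-P-CARD1. `t-1` mains and `(t-1)(t-2) + C(t-1,2) = 3 C(t-1,2)` helpers -/
theorem card_nbr_main (i : Fin t) :
    Fintype.card (Nbr (.inl i : TV t)) = t - 1 + 3 * (t - 1).choose 2 := by
  have hs : ((univ : Finset (Fin t)).erase i).card = t - 1 := by
    rw [Finset.card_erase_of_mem (Finset.mem_univ _), Finset.card_univ, Fintype.card_fin]
  rw [Fintype.card_subtype]
  have e : (univ.filter fun a' : TV t => tAdj (.inl i) a' = true) =
      Finset.disjSum (univ.erase i)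
        ((univ.filter fun h : Helper t => h.1.2.2 = i) ∪
          (univ.filter fun h : Helper t => h.1.1 = i ∨ h.1.2.1 = i)) := by
    ext x
    rcases x with x | x
    · rw [Finset.mem_filter, Finset.inl_mem_disjSum, Finset.mem_erase]
      show (_ ∧ decide (i ≠ x) = true) ↔ _
      rw [decide_eq_true_iff]
      exact ⟨fun h => ⟨h.2.symm, Finset.mem_univ _⟩, fun h => ⟨Finset.mem_univ _, h.1.symm⟩⟩
    · rw [Finset.mem_filter, Finset.inr_mem_disjSum, Finset.mem_union, Finset.mem_filter,
        Finset.mem_filter]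
      show (_ ∧ decide (i = x.1.1 ∨ i = x.1.2.1 ∨ i = x.1.2.2) = true) ↔ _
      rw [decide_eq_true_iff]
      simp only [Finset.mem_univ, true_and]
      constructor
      · rintro (h | h | h)
        · exact Or.inr (Or.inl h.symm)
        · exact Or.inr (Or.inr h.symm)
        · exact Or.inl h.symm
      · rintro (h | h | h)
        · exact Or.inr (Or.inr h.symm)
        · exact Or.inl h.symm
        · exact Or.inr (Or.inl h.symm)
  rw [e, Finset.card_disjSum, hs, Finset.card_union_of_disjoint]
  · have h1 : (univ.filter fun h : Helper t => h.1.2.2 = i).card = (t - 1).choose 2 := by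
      rw [← hs, ← card_lt_filter]
      refine Finset.card_bij (fun h _ => (h.1.1, h.1.2.1)) ?_ ?_ ?_
      · intro h hh
        simp only [Finset.mem_filter, Finset.mem_univ, true_and, Finset.mem_offDiag,
          Finset.mem_erase, and_true] at hh ⊢
        exact ⟨⟨fun e => h.2.2.1 (hh.trans e.symm), fun e => h.2.2.2 (hh.trans e.symm), h.2.1.ne⟩, h.2.1⟩
      · intro h hh h' hh' e
        simp only [Finset.mem_filter, Finset.mem_univ, true_and] at hh hh'
        simp only [Prod.mk.injEq] at e
        refine Subtype.ext (Prod.ext e.1 (Prod.ext e.2 (hh.trans hh'.symm)))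
      · intro p hp
        simp only [Finset.mem_filter, Finset.mem_univ, true_and, Finset.mem_offDiag,
          Finset.mem_erase, and_true] at hp
        exact ⟨⟨(p.1, p.2, i), hp.2, fun e => hp.1.1 e.symm, fun e => hp.1.2.1 e.symm⟩,
          Finset.mem_filter.2 ⟨Finset.mem_univ _, rfl⟩, rfl⟩
    have h2 : (univ.filter fun h : Helper t => h.1.1 = i ∨ h.1.2.1 = i).card =
        2 * (t - 1).choose 2 := by
      have h3 : (univ.filter fun h : Helper t => h.1.1 = i ∨ h.1.2.1 = i).card =
          ((univ : Finset (Fin t)).erase i).offDiag.card := by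
        refine Finset.card_bij (fun h _ => (if h.1.1 = i then h.1.2.1 else h.1.1, h.1.2.2)) ?_ ?_ ?_
        · intro h hh
          simp only [Finset.mem_filter, Finset.mem_univ, true_and, Finset.mem_offDiag,
            Finset.mem_erase, and_true] at hh ⊢
          have hp := h.2
          by_cases h1 : h.1.1 = i
          · rw [if_pos h1]
            exact ⟨fun e => h.2.1.ne (h1.trans e.symm), fun e => h.2.2.1 (e.trans h1.symm),
              h.2.2.2.symm⟩
          · rw [if_neg h1]
            have h2 : h.1.2.1 = i := hh.resolve_left h1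
            exact ⟨h1, fun e => h.2.2.2 (e.trans h2.symm), h.2.2.1.symm⟩
        · intro h hh h' hh' e
          simp only [Finset.mem_filter, Finset.mem_univ, true_and] at hh hh'
          simp only [Prod.mk.injEq] at e
          obtain ⟨e1, e2⟩ := e
          by_cases h1 : h.1.1 = i
          · rw [if_pos h1] at e1
            by_cases h1' : h'.1.1 = i
            · rw [if_pos h1'] at e1
              exact Subtype.ext (Prod.ext (h1.trans h1'.symm) (Prod.ext e1 e2))
            · rw [if_neg h1'] at e1
              exfalso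
              have h2' := hh'.resolve_left h1'
              have := h.2.1
              have := h'.2.1
              rw [h1, e1] at *
              rw [h2'] at *
              exact lt_asymm ‹_› ‹_›
          · rw [if_neg h1] at e1
            have h2 := hh.resolve_left h1
            by_cases h1' : h'.1.1 = i
            · rw [if_pos h1'] at e1
              exfalso
              have a1 := h.2.1
              have a2 := h'.2.1
              rw [e1, h2] at a1
              rw [h1'] at a2
              exact lt_asymm a1 a2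
            · rw [if_neg h1'] at e1
              have h2' := hh'.resolve_left h1'
              exact Subtype.ext (Prod.ext e1 (Prod.ext (h2.trans h2'.symm) e2))
        · intro p hp
          simp only [Finset.mem_offDiag, Finset.mem_erase, Finset.mem_univ, and_true] at hp
          obtain ⟨p1, p2, p3⟩ := hp
          rcases lt_or_gt_of_ne p1 with hl | hl
          · refine ⟨⟨(p.1, i, p.2), hl, p3.symm, p2⟩,
              Finset.mem_filter.2 ⟨Finset.mem_univ _, Or.inr rfl⟩, ?_⟩
            simp [p1]
          · refine ⟨⟨(i, p.1, p.2), hl, p2, p3.symm⟩,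
              Finset.mem_filter.2 ⟨Finset.mem_univ _, Or.inl rfl⟩, ?_⟩
            simp
      rw [h3, Finset.offDiag_card, hs, Nat.choose_two_right]
      have h4 : (t - 1) * (t - 1 - 1) = (t - 1) * (t - 1) - (t - 1) := by
        rw [Nat.mul_sub, mul_one]
      rw [← h4, Nat.mul_div_cancel' (Nat.even_mul_pred_self _).two_dvd]
    rw [h1, h2]
    ring
  · rw [Finset.disjoint_left]
    intro h hh hh'
    simp only [Finset.mem_filter, Finset.mem_univ, true_and] at hh hh'
    rcases hh' with h1 | h1
    · exact h.2.2.1 (hh.trans h1.symm)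
    · exact h.2.2.2 (hh.trans h1.symm)

end Crest.Agent.PLift
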