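import Crest.Agent.PLift.Card

set_option autoImplicit false
set_option linter.unusedSectionVars false

namespace Crest.Agent.PLift

open Crest.WLRefine Crest.WLRefine.ParityLift Finset Crest.Agent.WLD

variable {n m t k : ℕ}

/-- the even lift as a disjoint union over the base vertices -/
def card2Equiv (C : ChoiceSystem t) : LiftV C (lift0Parity t) ≃
    Σ u : BV C, {f : Nbr (typeOf C u) → Bool // (univ.filter fun a => f a = true).card % 2 = 0} where
  toFun x := ⟨x.1.1, ⟨x.1.2, x.2⟩⟩
  invFun y := ⟨⟨y.1, y.2.1⟩, y.2.2⟩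
  left_inv _ := rfl
  right_inv _ := rfl

/-- CHUNK R290-P-CARD2. PROOF. `LiftV` is the disjoint union over base vertices `u` of the even tags on
`Nbr (typeOf u)`: `∑_i dom i * 2^(t-1+3C(t-1,2)-1) + ∑_h lab h * 4` (`t ≥ 2`), each `dom`, `lab ≤ A`. -/
theorem card_lift_le (ht : 2 ≤ t) (C : ChoiceSystem t) (A : ℕ) (hA : C.SizeAtMost A) :
    Fintype.card (LiftV C (lift0Parity t)) ≤ A * orderFactor t := by
  have hmain : ∀ i : Fin t, Fintype.card {f : Nbr (.inl i : TV t) → Bool //
      (univ.filter fun a => f a = true).card % 2 = 0} = 2 ^ (t - 2 + 3 * (t - 1).choose 2) := by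
    intro i
    have hc := card_nbr_main i
    have : Nonempty (Nbr (.inl i : TV t)) := by
      rw [← Fintype.card_pos_iff, hc]
      omega
    rw [card_even_tags, hc]
    congr 1
    omega
  have hhelp : ∀ h : Helper t, Fintype.card {f : Nbr (.inr h : TV t) → Bool //
      (univ.filter fun a => f a = true).card % 2 = 0} = 4 := by
    intro h
    have hc := card_nbr_helper h
    have : Nonempty (Nbr (.inr h : TV t)) := by
      rw [← Fintype.card_pos_iff, hc]
      norm_num
    rw [card_even_tags, hc]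
    norm_num
  rw [Fintype.card_congr (card2Equiv C), Fintype.card_sigma, Fintype.sum_sum_type]
  have h1 : ∀ p : (Σ i : Fin t, Fin (C.dom i)), Fintype.card
      {f : Nbr (typeOf C (Sum.inl p)) → Bool // (univ.filter fun a => f a = true).card % 2 = 0} =
      2 ^ (t - 2 + 3 * (t - 1).choose 2) := fun p => hmain p.1
  have h2 : ∀ p : (Σ h : Helper t, Fin (C.lab h.1.1 h.1.2.1)), Fintype.card
      {f : Nbr (typeOf C (Sum.inr p)) → Bool // (univ.filter fun a => f a = true).card % 2 = 0} =
      4 := fun p => hhelp p.1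
  rw [Finset.sum_congr rfl (fun p _ => h1 p), Finset.sum_congr rfl (fun p _ => h2 p)]
  rw [Finset.sum_const, Finset.sum_const, Finset.card_univ, Finset.card_univ,
    Fintype.card_sigma, Fintype.card_sigma]
  simp only [Fintype.card_fin, smul_eq_mul]
  have h3 : ∑ i : Fin t, C.dom i ≤ t * A := by
    calc ∑ i : Fin t, C.dom i ≤ ∑ _i : Fin t, A := Finset.sum_le_sum fun i _ => hA.1 i
      _ = t * A := by simp
  have h4 : ∑ h : Helper t, C.lab h.1.1 h.1.2.1 ≤ (3 * t.choose 3) * A := by
    calc ∑ h : Helper t, C.lab h.1.1 h.1.2.1 ≤ ∑ _h : Helper t, A :=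
          Finset.sum_le_sum fun h _ => hA.2 _ _ h.2.1
      _ = (3 * t.choose 3) * A := by
          rw [Finset.sum_const, Finset.card_univ, card_helper, smul_eq_mul]
  unfold orderFactor
  calc _ ≤ (t * A) * 2 ^ (t - 2 + 3 * (t - 1).choose 2) + ((3 * t.choose 3) * A) * 4 :=
        Nat.add_le_add (Nat.mul_le_mul_right _ h3) (Nat.mul_le_mul_right _ h4)
    _ = A * (t * 2 ^ (t - 2 + 3 * (t - 1).choose 2) + 12 * t.choose 3) := by ring

end Crest.Agent.PLift
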