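import Crest.Agent.PLift.RU0

set_option autoImplicit false
set_option linter.unusedSectionVars false

namespace Crest.Agent.PLift

open Crest.WLRefine Crest.WLRefine.ParityLift Finset Crest.Agent.WLD

variable {t : ℕ} {C : ChoiceSystem t}

/-- CHUNK R290-P-CARDEQ (with `exists_ns`, `exists_fibre_equiv`) -/
theorem card_lift_eq (ht : 2 ≤ t) (C : ChoiceSystem t) :
    Fintype.card (LiftV C (lift0Parity t)) = Fintype.card (LiftV C (liftStarParity t)) := by
  obtain ⟨dt, hN⟩ := exists_ns C ht
  obtain ⟨g, -⟩ := exists_fibre_equiv (C := C) parDiff_0s parDiff_s0 (fun _ => dt) (fun _ => _)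
    (fun _ => hN)
  exact Fintype.card_congr g

end Crest.Agent.PLift
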