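import Crest.Agent.PLift.Adj

set_option autoImplicit false
set_option linter.unusedSectionVars false
set_option linter.unusedDecidableInType false

namespace Crest.Agent.PLift

open Crest.WLRefine Crest.WLRefine.ParityLift Finset

variable {t : ℕ} {C : ChoiceSystem t}

/-- CHUNK R290-P-CNT1. If `P` has fewer than `t` elements and both `i < j` are pebbled, some helper `g` with pair
`(i,j)` has its third type unpebbled and is itself unpebbled.
PROOF. Let `M` = main types occurring in `P`, `Hs` = helper types occurring in `P`; `|M| + |Hs| ≤ |P| < t`. The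
map `m ↦ (i,j;m)` from `univ \ M` (every such `m` is `≠ i, j`) to helpers is injective and `|univ \ M| > |Hs|`. -/
theorem exists_free_helper (P : Finset (BV C)) (hP : P.card < t) {i j : Fin t} (hij : i < j)
    (hi : ∃ u ∈ P, typeOf C u = .inl i) (hj : ∃ u ∈ P, typeOf C u = .inl j) :
    ∃ g : Helper t, g.1.1 = i ∧ g.1.2.1 = j ∧ (∀ u ∈ P, typeOf C u ≠ .inl g.1.2.2) ∧
      ∀ u ∈ P, typeOf C u ≠ .inr g := by
  classical
  by_contra hcon
  have hmi : ∀ m : Fin t, (Sum.inl m : TV t) ∉ P.image (typeOf C) → m ≠ i := by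
    rintro m hm rfl
    obtain ⟨u, hu, h⟩ := hi
    exact hm (Finset.mem_image.2 ⟨u, hu, h⟩)
  have hmj : ∀ m : Fin t, (Sum.inl m : TV t) ∉ P.image (typeOf C) → m ≠ j := by
    rintro m hm rfl
    obtain ⟨u, hu, h⟩ := hj
    exact hm (Finset.mem_image.2 ⟨u, hu, h⟩)
  let F : Fin t → TV t := fun m =>
    if h : (Sum.inl m : TV t) ∈ P.image (typeOf C) then Sum.inl m
    else Sum.inr ⟨(i, j, m), hij, hmi m h, hmj m h⟩
  have hF : ∀ m, F m ∈ P.image (typeOf C) := by
    intro m
    by_cases h : (Sum.inl m : TV t) ∈ P.image (typeOf C)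
    · simp only [F, dif_pos h]
      exact h
    · simp only [F, dif_neg h]
      by_contra hn
      refine hcon ⟨⟨(i, j, m), hij, hmi m h, hmj m h⟩, rfl, rfl, ?_, ?_⟩
      · intro u hu he
        exact h (Finset.mem_image.2 ⟨u, hu, he⟩)
      · intro u hu he
        exact hn (Finset.mem_image.2 ⟨u, hu, he⟩)
  have hinj : Function.Injective F := by
    intro m m' h
    by_cases h1 : (Sum.inl m : TV t) ∈ P.image (typeOf C) <;>
    by_cases h2 : (Sum.inl m' : TV t) ∈ P.image (typeOf C)
    · simp only [F, dif_pos h1, dif_pos h2] at h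
      exact Sum.inl.inj h
    · simp only [F, dif_pos h1, dif_neg h2] at h
      exact absurd h (by simp)
    · simp only [F, dif_neg h1, dif_pos h2] at h
      exact absurd h (by simp)
    · simp only [F, dif_neg h1, dif_neg h2] at h
      have h3 := congrArg Subtype.val (Sum.inr.inj h)
      exact congrArg (fun p : Fin t × Fin t × Fin t => p.2.2) h3
  have hc : (univ : Finset (Fin t)).card ≤ (P.image (typeOf C)).card :=
    Finset.card_le_card_of_injOn F (fun m _ => hF m) (fun m _ m' _ h => hinj h)
  rw [Finset.card_univ, Fintype.card_fin] at hc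
  have := Finset.card_image_le (s := P) (f := typeOf C)
  omega

end Crest.Agent.PLift
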