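import Crest.Agent.PLift.Adj

set_option autoImplicit false
set_option linter.unusedSectionVars false
set_option linter.unusedDecidableInType false

namespace Crest.Agent.PLift

open Crest.WLRefine Crest.WLRefine.ParityLift Finset

variable {t : ℕ} {C : ChoiceSystem t}

/-- CHUNK R290-P-CNT2. At most `t` pebbles and no successful choice: some pair is valid.
PROOF. If some main type `m` does not occur in `P`: `D' = (m, j)`, any `j ≠ m`. Otherwise `P` consists of exactly
one vertex `⟨i, d i⟩` of each main type; the choice `d` is not successful, so `lamL i j (d i) ≠ lamR i j (d j)`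
for some `i < j`; `D' = (i, j)` (the only possible edge over it is `⟨i,d i⟩ - ⟨j,d j⟩`). -/
theorem exists_valid (ht : 2 ≤ t) (hS : ¬ C.Successful) (P : Finset (BV C)) (hP : P.card ≤ t) :
    ∃ D' : Fin t × Fin t, D'.1 ≠ D'.2 ∧ Valid C D' P := by
  classical
  by_cases hm : ∃ m : Fin t, ∀ u ∈ P, typeOf C u ≠ Sum.inl m
  · obtain ⟨m, hm⟩ := hm
    have hj : ∃ j : Fin t, m ≠ j := by
      have : Nontrivial (Fin t) := Fin.nontrivial_iff_two_le.2 ht
      obtain ⟨j, hj⟩ := exists_ne m
      exact ⟨j, hj.symm⟩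
    obtain ⟨j, hj⟩ := hj
    refine ⟨(m, j), hj, ?_⟩
    intro u hu v hv _ hO
    rcases hO with ⟨h1, _⟩ | ⟨_, h2⟩
    · exact hm u hu h1
    · exact hm v hv h2
  · push Not at hm
    choose f hfP hft using hm
    have hinj : Function.Injective f := by
      intro a b hab
      have h1 := hft a
      rw [hab, hft b] at h1
      exact (Sum.inl.inj h1).symm
    have himg : univ.image f = P := by
      refine Finset.eq_of_subset_of_card_le ?_ ?_
      · intro u hu
        obtain ⟨m, _, rfl⟩ := Finset.mem_image.1 hu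
        exact hfP m
      · rw [Finset.card_image_of_injective _ hinj]
        simpa using hP
    have hd : ∀ m, ∃ d : Fin (C.dom m), f m = Sum.inl ⟨m, d⟩ := by
      intro m
      have h1 := hft m
      rcases h2 : f m with ⟨a, d⟩ | q
      · rw [h2] at h1
        have h3 : a = m := Sum.inl.inj h1
        subst h3
        exact ⟨d, rfl⟩
      · rw [h2] at h1
        exact absurd h1 (by simp [typeOf])
    choose d hd using hd
    have hbad : ∃ i j : Fin t, i < j ∧ C.lamL i j (d i) ≠ C.lamR i j (d j) := by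
      by_contra hcon
      push Not at hcon
      exact hS ⟨d, hcon⟩
    obtain ⟨i, j, hij, hne⟩ := hbad
    have key : bAdj C (f i) (f j) = false := by
      rw [hd i, hd j]
      show (mainAgree C ⟨i, d i⟩ ⟨j, d j⟩ || mainAgree C ⟨j, d j⟩ ⟨i, d i⟩) = false
      rw [Bool.or_eq_false_iff, mainAgree, mainAgree, decide_eq_false_iff_not,
        decide_eq_false_iff_not]
      exact ⟨fun ⟨_, h⟩ => hne h, fun ⟨h, _⟩ => absurd h (not_lt.2 hij.le)⟩
    refine ⟨(i, j), hij.ne, ?_⟩
    intro u hu v hv hb hO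
    rw [← himg] at hu hv
    obtain ⟨a, _, rfl⟩ := Finset.mem_image.1 hu
    obtain ⟨b, _, rfl⟩ := Finset.mem_image.1 hv
    unfold OverD at hO
    rw [hft a, hft b] at hO
    simp only [Sum.inl.injEq] at hO
    rcases hO with ⟨rfl, rfl⟩ | ⟨rfl, rfl⟩
    · rw [key] at hb
      exact absurd hb (by simp)
    · rw [bAdj_symm, key] at hb
      exact absurd hb (by simp)

/-- CHUNK R290-P-CNT2. the initial near-solution: `A 0 1 = 1`, everything else 0 -/
theorem exists_ns (C : ChoiceSystem t) (ht : 2 ≤ t) :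
    ∃ dt : Dat C, NS dt ((⟨0, by omega⟩ : Fin t), (⟨1, by omega⟩ : Fin t)) := by
  refine ⟨⟨fun i j => if i.1 = 0 ∧ j.1 = 1 then 1 else 0, fun _ => 0, fun _ _ => 0⟩, ?_, ?_, ?_⟩
  · simp
  · intro i
    show ∑ j ∈ univ.erase i, (if i.1 = 0 ∧ j.1 = 1 then (1 : ZMod 2) else 0) +
      ∑ h ∈ univ.filter (fun h : Helper t => h.1.2.2 = i), (0 : ZMod 2) = if i.1 = 0 then 1 else 0
    rw [Finset.sum_const_zero, add_zero]
    by_cases h0 : i.1 = 0
    · rw [if_pos h0, Finset.sum_eq_single (⟨1, by omega⟩ : Fin t)]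
      · rw [if_pos ⟨h0, rfl⟩]
      · intro b _ hb
        rw [if_neg]
        rintro ⟨_, h⟩
        exact hb (Fin.ext h)
      · intro h
        exfalso
        apply h
        rw [Finset.mem_erase]
        refine ⟨fun h1 => ?_, Finset.mem_univ _⟩
        rw [← h1] at h0
        simp at h0
    · rw [if_neg h0]
      refine Finset.sum_eq_zero (fun j _ => ?_)
      rw [if_neg]
      rintro ⟨h, _⟩
      exact h0 h
  · intro i j hij
    show (if i.1 = 0 ∧ j.1 = 1 then (1 : ZMod 2) else 0) +
      (if j.1 = 0 ∧ i.1 = 1 then (1 : ZMod 2) else 0) +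
      ∑ h ∈ univ.filter (fun h => IsPair h i j), (0 : ZMod 2) = _
    rw [Finset.sum_const_zero, add_zero]
    simp only [Fin.ext_iff]
    by_cases h1 : i.1 = 0 ∧ j.1 = 1
    · have h2 : ¬ (j.1 = 0 ∧ i.1 = 1) := by omega
      rw [if_pos h1, if_neg h2, if_pos (Or.inl h1), add_zero]
    · by_cases h2 : j.1 = 0 ∧ i.1 = 1
      · rw [if_neg h1, if_pos h2, if_pos (Or.inr ⟨h2.2, h2.1⟩), zero_add]
      · rw [if_neg h1, if_neg h2, if_neg, add_zero]
        rintro (h | h)
        · exact h1 h
        · exact h2 ⟨h.2, h.1⟩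

end Crest.Agent.PLift
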