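import Crest.Prelude.Def_ParityLift
import Crest.Agent.WLD.BF

/-! ROW 290, S0438 (module PLift, lead helper42): parity lifts.  Shared definitions.

Paper proof.  DUPLICATOR: a `Dat` gives bits `sv dt u a` (`u` base vertex, `a` template neighbour of
its type); translating the tags by these bits maps the even lift to the odd one, preserving all
adjacencies except those over ONE pair `D` of main types (`NS dt D`).  `D` can be moved (keeping the
bits of the pebbled base vertices) to every pair which is not realised by two adjacent pebbled base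
vertices.  SPOILER: the number of homomorphisms of the template into the two lifts is read off the
histograms and is different if a successful choice exists. -/

set_option autoImplicit false

namespace Crest.Agent.PLift

open Crest.WLRefine Crest.WLRefine.ParityLift Finset

/-! ### Booleans and `ZMod 2` -/

def bz (b : Bool) : ZMod 2 := if b then 1 else 0
def zb (x : ZMod 2) : Bool := decide (x = 1)

@[simp] theorem bz_true : bz true = 1 := rfl
@[simp] theorem bz_false : bz false = 0 := rfl

@[simp] theorem bz_zb (x : ZMod 2) : bz (zb x) = x := by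
  revert x; decide

theorem bz_inj {a b : Bool} (h : bz a = bz b) : a = b := by
  revert a b; decide

theorem bz_xor (a b : Bool) : bz (xor a b) = bz a + bz b := by
  revert a b; decide

theorem zmod2_add_self (x : ZMod 2) : x + x = 0 := by
  revert x; decide

theorem card_mod_two_iff {ι : Type*} [Fintype ι] (f : ι → Bool) (b : Bool) :
    (univ.filter fun a => f a = true).card % 2 = b.toNat ↔ ∑ a, bz (f a) = bz b := by
  have h1 : ∑ a, bz (f a) = (((univ.filter fun a => f a = true).card : ℕ) : ZMod 2) := by
    rw [Finset.card_filter, Nat.cast_sum]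
    refine Finset.sum_congr rfl (fun a _ => ?_)
    cases f a <;> simp
  have h2 : bz b = ((b.toNat : ℕ) : ZMod 2) := by cases b <;> simp
  rw [h1, h2, ZMod.natCast_eq_natCast_iff']
  have h3 : b.toNat % 2 = b.toNat := by cases b <;> rfl
  rw [h3]

/-! ### data of a translation -/

variable {t : ℕ}

structure Dat (C : ChoiceSystem t) where
  A : Fin t → Fin t → ZMod 2
  r : Helper t → ZMod 2
  p : (h : Helper t) → Fin (C.lab h.1.1 h.1.2.1) → ZMod 2

variable (C : ChoiceSystem t)

/-- main base vertices -/
abbrev MV : Type := Σ i : Fin t, Fin (C.dom i)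

/-- label of `u` for the pair of `h`, when `u` has the first type of the pair -/
def qL (u : MV C) (h : Helper t) (e : u.1 = h.1.1) : Fin (C.lab h.1.1 h.1.2.1) :=
  C.lamL h.1.1 h.1.2.1 (Fin.cast (congrArg C.dom e) u.2)

/-- label of `u` for the pair of `h`, when `u` has the second type of the pair -/
def qR (u : MV C) (h : Helper t) (e : u.1 = h.1.2.1) : Fin (C.lab h.1.1 h.1.2.1) :=
  C.lamR h.1.1 h.1.2.1 (Fin.cast (congrArg C.dom e) u.2)

variable {C}

/-- the bit of a main base vertex at the helper `h` -/
def hb (dt : Dat C) (u : MV C) (h : Helper t) : ZMod 2 :=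
  if e : u.1 = h.1.1 then dt.p h (qL C u h e)
  else if e : u.1 = h.1.2.1 then dt.r h + dt.p h (qR C u h e)
  else if u.1 = h.1.2.2 then dt.r h else 0

/-- `{i, j}` is the pair of `h` -/
def IsPair (h : Helper t) (i j : Fin t) : Prop :=
  (h.1.1 = i ∧ h.1.2.1 = j) ∨ (h.1.1 = j ∧ h.1.2.1 = i)

instance (h : Helper t) (i j : Fin t) : Decidable (IsPair h i j) := by
  unfold IsPair; infer_instance

/-- the bits -/
def sv (dt : Dat C) : BV C → TV t → ZMod 2
  | .inl u, .inl j => dt.A u.1 j + ∑ h ∈ univ.filter (fun h => IsPair h u.1 j), hb dt u h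
  | .inl u, .inr h => hb dt u h
  | .inr hq, .inl i =>
      if i = hq.1.1.1 then dt.p hq.1 hq.2
      else if i = hq.1.1.2.1 then dt.r hq.1 + dt.p hq.1 hq.2 else dt.r hq.1
  | .inr _, .inr _ => 0

/-- near-solution with defect pair `D` -/
structure NS (dt : Dat C) (D : Fin t × Fin t) : Prop where
  ne : D.1 ≠ D.2
  par : ∀ i, ∑ j ∈ univ.erase i, dt.A i j +
    ∑ h ∈ univ.filter (fun h : Helper t => h.1.2.2 = i), dt.r h = if i.1 = 0 then 1 else 0
  ed : ∀ i j, i ≠ j → dt.A i j + dt.A j i + ∑ h ∈ univ.filter (fun h => IsPair h i j), dt.r h =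
    if (i = D.1 ∧ j = D.2) ∨ (i = D.2 ∧ j = D.1) then 1 else 0

variable (C)

/-- `u`, `v` lie over the pair `D` of main types -/
def OverD (D : Fin t × Fin t) (u v : BV C) : Prop :=
  (typeOf C u = .inl D.1 ∧ typeOf C v = .inl D.2) ∨ (typeOf C u = .inl D.2 ∧ typeOf C v = .inl D.1)

/-- no two adjacent vertices of `P` lie over `D` -/
def Valid (D : Fin t × Fin t) (P : Finset (BV C)) : Prop :=
  ∀ u ∈ P, ∀ v ∈ P, bAdj C u v = true → ¬ OverD C D u v

variable {C}

/-- the bits of the members of `P` agree -/
def SameOn (P : Finset (BV C)) (dt dt' : Dat C) : Prop :=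
  ∀ u ∈ P, ∀ a, tAdj (typeOf C u) a = true → sv dt u a = sv dt' u a

theorem SameOn.trans {P : Finset (BV C)} {d1 d2 d3 : Dat C} (h : SameOn P d1 d2)
    (h' : SameOn P d2 d3) : SameOn P d1 d3 := fun u hu a ha => (h u hu a ha).trans (h' u hu a ha)

theorem SameOn.refl (P : Finset (BV C)) (d : Dat C) : SameOn P d d := fun _ _ _ _ => rfl

theorem NS.swap {dt : Dat C} {a b : Fin t} (h : NS dt (a, b)) : NS dt (b, a) :=
  ⟨h.ne.symm, h.par, fun i j hij => by
    rw [h.ed i j hij]
    by_cases h1 : (i = a ∧ j = b) ∨ (i = b ∧ j = a)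
    · rw [if_pos h1, if_pos h1.symm]
    · rw [if_neg h1, if_neg (fun h2 => h1 h2.symm)]⟩

end Crest.Agent.PLift
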