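import Crest.Agent.PLift.RU0

set_option autoImplicit false
set_option linter.unusedSectionVars false

namespace Crest.Agent.PLift

open Crest.WLRefine Crest.WLRefine.ParityLift Finset

variable {t : ℕ} {C : ChoiceSystem t} {k : ℕ}

theorem RU2_inj {b b' : TV t → Bool} (hb : ParDiff b b') (hb' : ParDiff b' b) {dt : Dat C}
    {D : Fin t × Fin t} (hN : NS dt D) : Function.Injective (actFun hb hN) := fun x y h => by
  rw [← actFun_actFun hb hb' hN x, h, actFun_actFun hb hb' hN y]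

theorem RU2_mem {J : Finset (Fin k)} {x : Fin k → V0 C ⊕ V1 C} {ε : Bool} {j : Fin k}
    (hj : j ∈ J) (hε : (x j).isRight = ε) : baseU (x j) ∈ SS J x ε :=
  Finset.mem_image.2 ⟨j, Finset.mem_filter.2 ⟨hj, hε⟩, rfl⟩

/-- CHUNK R290-P-RU2. PROOF. Different sides: not equal, not adjacent, before and after. Same side: `actFun` is
injective (`actFun_actFun`) and preserves adjacency off the defect (`actFun_adj`, `Valid`). -/
theorem RUJ_atomic {x y : Fin k → V0 C ⊕ V1 C} (hR : RUJ univ x y) (i j : Fin k) :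
    (x i = x j ↔ y i = y j) ∧ adjU (x i) (x j) = adjU (y i) (y j) := by
  obtain ⟨dt0, D0, h0, dt1, D1, h1, hV0, hV1, hy⟩ := hR
  rw [hy i (mem_univ _), hy j (mem_univ _)]
  have mi : ∀ l : Fin k, ∀ a, x l = .inl a → a.1.1 ∈ SS univ x false := fun l a hl => by
    have := RU2_mem (x := x) (ε := false) (mem_univ l) (by rw [hl]; rfl)
    rw [hl] at this
    exact this
  have mr : ∀ l : Fin k, ∀ a, x l = .inr a → a.1.1 ∈ SS univ x true := fun l a hl => by
    have := RU2_mem (x := x) (ε := true) (mem_univ l) (by rw [hl]; rfl)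
    rw [hl] at this
    exact this
  rcases hi : x i with a | a <;> rcases hj : x j with a' | a'
  · refine ⟨?_, ?_⟩
    · show Sum.inl a = Sum.inl a' ↔ Sum.inr (actFun parDiff_0s h0 a) = Sum.inr (actFun parDiff_0s h0 a')
      rw [Sum.inl.injEq, Sum.inr.injEq, (RU2_inj parDiff_0s parDiff_s0 h0).eq_iff]
    · exact (actFun_adj parDiff_0s h0 a a' (fun h => hV0 _ (mi i a hi) _ (mi j a' hj) h)).symm
  · exact ⟨⟨fun h => (Sum.inl_ne_inr h).elim, fun h => (Sum.inr_ne_inl h).elim⟩, rfl⟩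
  · exact ⟨⟨fun h => (Sum.inr_ne_inl h).elim, fun h => (Sum.inl_ne_inr h).elim⟩, rfl⟩
  · refine ⟨?_, ?_⟩
    · show Sum.inr a = Sum.inr a' ↔ Sum.inl (actFun parDiff_s0 h1 a) = Sum.inl (actFun parDiff_s0 h1 a')
      rw [Sum.inr.injEq, Sum.inl.injEq, (RU2_inj parDiff_s0 parDiff_0s h1).eq_iff]
    · exact (actFun_adj parDiff_s0 h1 a a' (fun h => hV1 _ (mr i a hi) _ (mr j a' hj) h)).symm

/-- CHUNK R290-P-RU2. a related constant tuple (`exists_ns`; one vertex: nothing adjacent to itself) -/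
theorem RUJ_const (ht : 2 ≤ t) (a : V0 C) :
    ∃ b : V1 C, RUJ (k := k) univ (fun _ => Sum.inl a) (fun _ => Sum.inr b) := by
  obtain ⟨dt, hN⟩ := exists_ns C ht
  refine ⟨actFun parDiff_0s hN a, dt, _, hN, dt, _, hN, ?_, ?_, fun i _ => rfl⟩
  · intro u hu v hv h _
    obtain ⟨i, -, rfl⟩ := Finset.mem_image.1 hu
    obtain ⟨j, -, rfl⟩ := Finset.mem_image.1 hv
    have h2 := bAdj_tAdj h
    have h3 : tAdj (typeOf C a.1.1) (typeOf C a.1.1) = true := h2
    rw [tAdj_irrefl] at h3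
    exact absurd h3 (by simp)
  · intro u hu
    obtain ⟨i, hi, -⟩ := Finset.mem_image.1 hu
    have := (Finset.mem_filter.1 hi).2
    exact absurd this (by simp)

end Crest.Agent.PLift
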