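import Crest.Agent.PLift.RU1
import Crest.Agent.PLift.RU2
import Crest.Agent.PLift.CardEq

set_option autoImplicit false
set_option linter.unusedSectionVars false

namespace Crest.Agent.PLift

open Crest.WLRefine Crest.WLRefine.ParityLift Finset Crest.Agent.WLD

variable {t : ℕ} {C : ChoiceSystem t}

/-- CHUNK R290-P-DUPJ. PROOF. `JEquiv.of_rel` (file WLD/BF.lean) with
`R v w := RUJ univ (fun i => .inl (e0.symm (v i))) (fun i => .inr (e1.symm (w i)))`, `e0, e1 = Fintype.equivFin`;
`h0` from `RUJ_atomic`; `h1` from `RUJ_step` with `J = univ` (`card = k < k + 1`), `f = e0.symm.trans (g0.trans e1)`;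
start: `RUJ_const`. If `V0 C` is empty, both histograms are empty (`k ≥ 1`; `exists_fibre_equiv`/`exists_ns` give
`V0 C ≃ V1 C`, so `V1 C` is empty too). -/
theorem dupJ (k : ℕ) (hk : 1 ≤ k) (C : ChoiceSystem (k + 1)) (hS : ¬ C.Successful) :
    JEquiv k (asMatrix (liftAdj C (lift0Parity (k + 1)))) (asMatrix (liftAdj C (liftStarParity (k + 1)))) := by
  classical
  have hk2 : 2 ≤ k + 1 := by omega
  rcases isEmpty_or_nonempty (V0 C) with hE | ⟨⟨a⟩⟩
  · have h0 : Fintype.card (LiftV C (lift0Parity (k + 1))) = 0 := Fintype.card_eq_zero_iff.2 hE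
    have h1 : Fintype.card (LiftV C (liftStarParity (k + 1))) = 0 := by
      rw [← card_lift_eq hk2 C, h0]
    have hk0 : 0 < k := by omega
    intro s
    have e0 : (univ : Finset (Fin k → Fin (Fintype.card (LiftV C (lift0Parity (k + 1)))))) = ∅ := by
      rw [Finset.univ_eq_empty_iff]
      refine ⟨fun f => ?_⟩
      have := (f ⟨0, hk0⟩).2
      omega
    have e1 : (univ : Finset (Fin k → Fin (Fintype.card (LiftV C (liftStarParity (k + 1)))))) =
        ∅ := by
      rw [Finset.univ_eq_empty_iff]
      refine ⟨fun f => ?_⟩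
      have := (f ⟨0, hk0⟩).2
      omega
    rw [e0, e1]
    simp
  · set e0 := Fintype.equivFin (LiftV C (lift0Parity (k + 1))) with he0
    set e1 := Fintype.equivFin (LiftV C (liftStarParity (k + 1))) with he1
    obtain ⟨b, hb⟩ := RUJ_const (k := k) hk2 a
    have hstart : RUJ (k := k) univ
        (fun i => (Sum.inl (e0.symm ((fun _ => e0 a : Fin k → _) i)) : V0 C ⊕ V1 C))
        (fun i => (Sum.inr (e1.symm ((fun _ => e1 b : Fin k → _) i)) : V0 C ⊕ V1 C)) := by
      simpa using hb
    refine JEquiv.of_rel
      (R := fun v w => RUJ univ (fun i => (Sum.inl (e0.symm (v i)) : V0 C ⊕ V1 C))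
        (fun i => (Sum.inr (e1.symm (w i)) : V0 C ⊕ V1 C))) ?_ ?_ hstart
    · intro v w hR
      have hat := fun i j => RUJ_atomic hR i j
      refine Prod.ext ?_ ?_
      · funext i j
        refine decide_eq_decide.2 ?_
        have := (hat i j).1
        rw [Sum.inl.injEq, Sum.inr.injEq, e0.symm.injective.eq_iff, e1.symm.injective.eq_iff] at this
        exact this
      · funext i j
        exact (hat i j).2
    · intro v w hR
      have hJ : (univ : Finset (Fin k)).card < k + 1 := by
        rw [Finset.card_univ, Fintype.card_fin]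
        omega
      obtain ⟨g0, g1, hg⟩ := RUJ_step hk2 hS univ hJ hR
      refine ⟨e0.symm.trans (g0.trans e1), fun z i => ?_⟩
      have := hg (Sum.inl (e0.symm z)) i (Finset.erase_subset i univ)
      rw [swapE_inl] at this
      have h1 : (fun j => (Sum.inl (e0.symm (Function.update v i z j)) : V0 C ⊕ V1 C)) =
          Function.update (fun j => Sum.inl (e0.symm (v j))) i (Sum.inl (e0.symm z)) := by
        funext j
        by_cases hj : j = i
        · subst hj; simp
        · simp [Function.update_of_ne hj]
      have h2 : (fun j => (Sum.inr (e1.symm (Function.update w i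
          ((e0.symm.trans (g0.trans e1)) z) j)) : V0 C ⊕ V1 C)) =
          Function.update (fun j => Sum.inr (e1.symm (w j))) i (Sum.inr (g0 (e0.symm z))) := by
        funext j
        by_cases hj : j = i
        · subst hj; simp
        · simp [Function.update_of_ne hj]
      show RUJ univ (fun j => (Sum.inl (e0.symm (Function.update v i z j)) : V0 C ⊕ V1 C)) _
      rw [h1, h2]
      exact this

end Crest.Agent.PLift
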