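import Crest.Agent.PLift.Adj

/-! Spoiler half: homomorphism counts of the template. -/

set_option autoImplicit false
set_option linter.unusedSectionVars false

namespace Crest.Agent.PLift

open Crest.WLRefine Crest.WLRefine.ParityLift Finset

variable {n m t k : ℕ}

/-- number of common neighbours of three vertices -/
def cn (G : Fin n → Fin n → Bool) (a b c : Fin n) : ℕ :=
  (univ.filter fun z => G z a = true ∧ G z b = true ∧ G z c = true).card

/-- weight of a tuple of mains: number of extensions to the helpers if it is a clique, else 0 -/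
def homW (G : Fin n → Fin n → Bool) (x : Fin t → Fin n) : ℕ :=
  if ∀ i j, i ≠ j → G (x i) (x j) = true then
    ∏ h : Helper t, cn G (x h.1.1) (x h.1.2.1) (x h.1.2.2) else 0

/-- number of homomorphisms of the template -/
def homT (t : ℕ) (G : Fin n → Fin n → Bool) : ℕ := ∑ x : Fin t → Fin n, homW G x

/-- append one vertex -/
def ext (v : Fin k → Fin n) (z : Fin n) : Fin (k + 1) → Fin n := Fin.snoc (α := fun _ => Fin n) v z

/-- homomorphism of the template into a graph on a type `V` -/
def IsHomT {V : Type} (adj : V → V → Bool) (ψ : TV t → V) : Prop :=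
  ∀ a b, tAdj a b = true → adj (ψ a) (ψ b) = true

/-- base homomorphism -/
def BHom (C : ChoiceSystem t) (φ : TV t → BV C) : Prop :=
  ∀ a a', tAdj a a' = true → bAdj C (φ a) (φ a') = true

/-- tags over a base homomorphism which form a homomorphism into the lift -/
def SolP {C : ChoiceSystem t} (b : TV t → Bool) (φ : TV t → BV C)
    (z : (a : TV t) → (Nbr (typeOf C (φ a)) → Bool)) : Prop :=
  (∀ a, ∑ a', bz (z a a') = bz (b (typeOf C (φ a)))) ∧
  ∀ a a', tAdj a a' = true → ∀ (h : tAdj (typeOf C (φ a)) (typeOf C (φ a')) = true)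
    (h' : tAdj (typeOf C (φ a')) (typeOf C (φ a)) = true), z a ⟨_, h⟩ = z a' ⟨_, h'⟩

end Crest.Agent.PLift
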