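import Crest.Agent.PLift.Adj

set_option autoImplicit false
set_option linter.unusedSectionVars false
set_option linter.unusedDecidableInType false

namespace Crest.Agent.PLift

open Crest.WLRefine Crest.WLRefine.ParityLift Finset

variable {t : ℕ} {C : ChoiceSystem t}

theorem ind_pair {m x i k : Fin t} (hx : m ≠ x) (hik : i ≠ k) :
    (if (i = m ∧ k = x) ∨ (i = x ∧ k = m) then (1 : ZMod 2) else 0) =
      (if i = m then (if k = x then 1 else 0) else 0) +
      (if k = m then (if i = x then 1 else 0) else 0) := by
  by_cases hi : i = m
  · have hk : k ≠ m := fun h => hik (hi.trans h.symm)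
    have hix : i ≠ x := fun h => hx (hi.symm.trans h)
    simp only [hi, hk, true_and, and_false, or_false, if_true, if_false, add_zero]
  · by_cases hk : k = m
    · simp only [hi, hk, and_true, false_and, false_or, if_true, if_false, zero_add]
    · simp only [hi, hk, and_false, false_and, or_false, if_false, add_zero]

/-- CHUNK R290-P-MOVE1.  Move the defect from `(m,j)` to `(m,l)` through an unpebbled main type `m`.
PROOF. Add 1 to `A m j` and to `A m l` (if `j = l` nothing to do), `r`, `p` unchanged.  `NS.par` at `m` changes by
`1+1`, `NS.ed` changes exactly at `{m,j}` and `{m,l}`; `hb` is unchanged and `sv u (inl _)` changes only for `u`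
of type `m`. -/
theorem move1 {dt : Dat C} {m j l : Fin t} (hN : NS dt (m, j)) (hl : m ≠ l) (P : Finset (BV C))
    (hP : ∀ u ∈ P, typeOf C u ≠ .inl m) :
    ∃ dt' : Dat C, NS dt' (m, l) ∧ SameOn P dt dt' := by
  have hmj : m ≠ j := hN.ne
  have h2 : (1 : ZMod 2) + 1 = 0 := by decide
  set g : Fin t → ZMod 2 := fun b => (if b = j then 1 else 0) + (if b = l then 1 else 0) with hg
  have hgm : g m = 0 := by
    simp only [hg, if_neg hmj, if_neg hl, add_zero]
  have hgs : ∑ b ∈ univ.erase m, g b = 0 := by
    rw [hg, Finset.sum_add_distrib, Finset.sum_ite_eq', Finset.sum_ite_eq',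
      if_pos (mem_erase.2 ⟨hmj.symm, mem_univ _⟩), if_pos (mem_erase.2 ⟨hl.symm, mem_univ _⟩), h2]
  refine ⟨⟨fun a b => dt.A a b + if a = m then g b else 0, dt.r, dt.p⟩, ⟨hl, ?_, ?_⟩, ?_⟩
  · intro i
    have h3 := hN.par i
    rw [← h3]
    simp only [Finset.sum_add_distrib]
    by_cases hi : i = m
    · subst hi
      simp only [if_true, hgs, add_zero]
    · simp only [if_neg hi, Finset.sum_const_zero, add_zero]
  · intro i k hik
    have h3 := hN.ed i k hik
    have e : (dt.A i k + if i = m then g k else 0) + (dt.A k i + if k = m then g i else 0) +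
        ∑ h ∈ univ.filter (fun h => IsPair h i k), dt.r h =
        (dt.A i k + dt.A k i + ∑ h ∈ univ.filter (fun h => IsPair h i k), dt.r h) +
        ((if i = m then g k else 0) + if k = m then g i else 0) := by ring
    change (dt.A i k + if i = m then g k else 0) + (dt.A k i + if k = m then g i else 0) +
        ∑ h ∈ univ.filter (fun h => IsPair h i k), dt.r h = _
    rw [e, h3]
    simp only
    rw [ind_pair hmj hik, ind_pair hl hik]
    have h22 : (2 : ZMod 2) = 0 := by decide
    by_cases hi : i = m
    · have hk : k ≠ m := fun h => hik (hi.trans h.symm)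
      simp only [if_pos hi, if_neg hk, add_zero, hg]
      linear_combination (if k = j then (1 : ZMod 2) else 0) * h22
    · by_cases hk : k = m
      · simp only [if_neg hi, if_pos hk, zero_add, hg]
        linear_combination (if i = j then (1 : ZMod 2) else 0) * h22
      · simp only [if_neg hi, if_neg hk, add_zero]
  · intro u hu a ha
    rcases u with u | u
    · have hne : u.1 ≠ m := by
        intro h
        exact hP _ hu (by simp only [typeOf, h])
      rcases a with a | a
      · change dt.A u.1 a + ∑ h ∈ univ.filter (fun h => IsPair h u.1 a), hb dt u h =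
          (dt.A u.1 a + if u.1 = m then g a else 0) +
            ∑ h ∈ univ.filter (fun h => IsPair h u.1 a), hb dt u h
        rw [if_neg hne, add_zero]
      · rfl
    · rcases a with a | a
      · rfl
      · rfl

end Crest.Agent.PLift
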