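import Crest.Agent.PLift.Toggle

set_option autoImplicit false
set_option linter.unusedSectionVars false
set_option linter.unusedDecidableInType false

namespace Crest.Agent.PLift

open Crest.WLRefine Crest.WLRefine.ParityLift Finset

variable {t : ℕ} {C : ChoiceSystem t}

theorem toggle_r_ne (dt : Dat C) (g : Helper t) (l : Fin t)
    (Q : Finset (Fin (C.lab g.1.1 g.1.2.1))) {h : Helper t} (hh : h ≠ g) :
    (toggle dt g l Q).r h = dt.r h := by
  simp [toggle, hh]

theorem toggle_p_ne (dt : Dat C) (g : Helper t) (l : Fin t)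
    (Q : Finset (Fin (C.lab g.1.1 g.1.2.1))) {h : Helper t} (hh : h ≠ g)
    (q : Fin (C.lab h.1.1 h.1.2.1)) :
    (toggle dt g l Q).p h q = dt.p h q := by
  simp [toggle, Ne.symm hh]

theorem toggle_r_self (dt : Dat C) (g : Helper t) (l : Fin t)
    (Q : Finset (Fin (C.lab g.1.1 g.1.2.1))) :
    (toggle dt g l Q).r g = dt.r g + 1 := by
  simp [toggle]

theorem toggle_p_self (dt : Dat C) (g : Helper t) (l : Fin t)
    (Q : Finset (Fin (C.lab g.1.1 g.1.2.1))) (q : Fin (C.lab g.1.1 g.1.2.1)) :
    (toggle dt g l Q).p g q = dt.p g q + if q ∈ Q then 1 else 0 := by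
  simp [toggle]

theorem bAdj_of_q {u v : MV C} (g : Helper t) (eu : u.1 = g.1.1) (ev : v.1 = g.1.2.1)
    (hq : qL C u g eu = qR C v g ev) : bAdj C (Sum.inl u) (Sum.inl v) = true := by
  obtain ⟨i, d⟩ := u
  obtain ⟨j, e⟩ := v
  obtain ⟨⟨a, b, c⟩, hab, hc1, hc2⟩ := g
  simp only at eu ev
  subst eu
  subst ev
  simp only [bAdj, mainAgree, Bool.or_eq_true, decide_eq_true_eq]
  left
  exact ⟨hab, hq⟩

/-- CHUNK R290-P-MOVE2. Bits of the pebbled vertices do not change, with
`Q = {q : some pebbled vertex of type g.1.2.1 has right label q}`.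
PROOF. Nothing of third type `m` and no `(g,_)` is pebbled, so only the bits `hb u g` for `u` of type `g.1.1`
or `g.1.2.1` could change (then also `sv u (inl _) `, which is `A + ∑ hb`; `A` changed only at `m`).
`u` of type `g.1.1` with label `q`: `hb u g = p g q` changes iff `q ∈ Q`; but then some pebbled `v` of type
`g.1.2.1` has label `q` and `u - v` is a base edge over `(g.1.1, g.1.2.1)`, excluded by `hV`.
`v` of type `g.1.2.1`, label `q ∈ Q`: `r g + p g q` changes by `1 + 1`. -/
theorem toggle_same (dt : Dat C) (g : Helper t) (l : Fin t) (P : Finset (BV C))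
    (hV : Valid C (g.1.1, g.1.2.1) P) (hm : ∀ u ∈ P, typeOf C u ≠ .inl g.1.2.2)
    (hg : ∀ u ∈ P, typeOf C u ≠ .inr g) :
    ∃ Q : Finset (Fin (C.lab g.1.1 g.1.2.1)), SameOn P dt (toggle dt g l Q) := by
  classical
  refine ⟨univ.filter (fun q => ∃ v : MV C, (Sum.inl v : BV C) ∈ P ∧
    ∃ e : v.1 = g.1.2.1, qR C v g e = q), ?_⟩
  set Q : Finset (Fin (C.lab g.1.1 g.1.2.1)) := univ.filter (fun q => ∃ v : MV C,
    (Sum.inl v : BV C) ∈ P ∧ ∃ e : v.1 = g.1.2.1, qR C v g e = q) with hQ
  have hne12 : g.1.1 ≠ g.1.2.1 := ne_of_lt g.2.1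
  -- the bits at helpers do not change
  have hA : ∀ u : MV C, (Sum.inl u : BV C) ∈ P → ∀ h, hb (toggle dt g l Q) u h = hb dt u h := by
    intro u hu h
    by_cases hh : h = g
    · subst hh
      by_cases e1 : u.1 = h.1.1
      · have hnot : qL C u h e1 ∉ Q := by
          intro hmem
          rw [hQ, mem_filter] at hmem
          obtain ⟨-, v, hv, e, hqe⟩ := hmem
          exact hV _ hu _ hv (bAdj_of_q h e1 e hqe.symm)
            (Or.inl ⟨congrArg Sum.inl e1, congrArg Sum.inl e⟩)
        simp only [hb, e1, dif_pos]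
        rw [toggle_p_self, if_neg hnot, add_zero]
      · by_cases e2 : u.1 = h.1.2.1
        · have hmem : qR C u h e2 ∈ Q := by
            rw [hQ, mem_filter]
            exact ⟨mem_univ _, u, hu, e2, rfl⟩
          unfold hb
          rw [dif_neg e1, dif_pos e2, dif_neg e1, dif_pos e2, toggle_r_self, toggle_p_self,
            if_pos hmem]
          have := zmod2_add_self (1 : ZMod 2)
          linear_combination this
        · have e3 : u.1 ≠ h.1.2.2 := fun e3 => hm _ hu (congrArg Sum.inl e3)
          unfold hb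
          rw [dif_neg e1, dif_neg e2, if_neg e3, dif_neg e1, dif_neg e2, if_neg e3]
    · unfold hb
      simp only [toggle_r_ne dt g l Q hh, toggle_p_ne dt g l Q hh]
  intro u hu a ha
  rcases u with u | hq
  · rcases a with j | h
    · have hne : u.1 ≠ g.1.2.2 := fun e3 => hm _ hu (congrArg Sum.inl e3)
      have hAeq : (toggle dt g l Q).A u.1 j = dt.A u.1 j := by
        simp [toggle, hne]
      simp only [sv]
      rw [hAeq]
      congr 1
      exact Finset.sum_congr rfl (fun h _ => (hA u hu h).symm)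
    · simp only [sv]
      exact (hA u hu h).symm
  · rcases a with i | h
    · have hne : hq.1 ≠ g := fun e => hg _ hu (congrArg Sum.inr e)
      simp only [sv, toggle_r_ne dt g l Q hne, toggle_p_ne dt g l Q hne]
    · rfl

end Crest.Agent.PLift
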