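import Crest.Agent.PLift.Toggle

set_option autoImplicit false
set_option linter.unusedSectionVars false
set_option linter.unusedDecidableInType false

namespace Crest.Agent.PLift

open Crest.WLRefine Crest.WLRefine.ParityLift Finset

variable {t : ℕ} {C : ChoiceSystem t}

theorem toggle_ns_par (dt : Dat C) (g : Helper t) (l : Fin t) (hl : g.1.2.2 ≠ l)
    (Q : Finset (Fin (C.lab g.1.1 g.1.2.1))) (i : Fin t) :
    ∑ j ∈ univ.erase i, (toggle dt g l Q).A i j +
      ∑ h ∈ univ.filter (fun h : Helper t => h.1.2.2 = i), (toggle dt g l Q).r h =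
    ∑ j ∈ univ.erase i, dt.A i j +
      ∑ h ∈ univ.filter (fun h : Helper t => h.1.2.2 = i), dt.r h := by
  have h1 : ∑ j ∈ univ.erase i, (toggle dt g l Q).A i j =
      ∑ j ∈ univ.erase i, dt.A i j + (if i = g.1.2.2 then 1 else 0) := by
    show ∑ j ∈ univ.erase i, (dt.A i j + if i = g.1.2.2 ∧ j = l then 1 else 0) = _
    rw [Finset.sum_add_distrib]
    congr 1
    by_cases hi : i = g.1.2.2
    · subst hi
      have : ∀ j ∈ univ.erase g.1.2.2, (if g.1.2.2 = g.1.2.2 ∧ j = l then (1 : ZMod 2) else 0) =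
          if j = l then 1 else 0 := by
        intro j _
        simp
      rw [Finset.sum_congr rfl this, Finset.sum_ite_eq']
      simp [hl.symm]
    · simp [hi]
  have h2 : ∑ h ∈ univ.filter (fun h : Helper t => h.1.2.2 = i), (toggle dt g l Q).r h =
      ∑ h ∈ univ.filter (fun h : Helper t => h.1.2.2 = i), dt.r h +
        (if i = g.1.2.2 then 1 else 0) := by
    show ∑ h ∈ univ.filter (fun h : Helper t => h.1.2.2 = i), (dt.r h + if h = g then 1 else 0) = _
    rw [Finset.sum_add_distrib, Finset.sum_ite_eq']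
    congr 1
    by_cases hi : i = g.1.2.2
    · simp [hi]
    · simp [hi, Ne.symm hi]
  rw [h1, h2]
  have h3 := zmod2_add_self (if i = g.1.2.2 then (1 : ZMod 2) else 0)
  generalize (if i = g.1.2.2 then (1 : ZMod 2) else 0) = c at h3 ⊢
  linear_combination h3

theorem toggle_ns_ed (dt : Dat C) (g : Helper t) (l : Fin t)
    (Q : Finset (Fin (C.lab g.1.1 g.1.2.1))) (i j : Fin t) (hij : i ≠ j) :
    (toggle dt g l Q).A i j + (toggle dt g l Q).A j i +
      ∑ h ∈ univ.filter (fun h => IsPair h i j), (toggle dt g l Q).r h =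
    (dt.A i j + dt.A j i + ∑ h ∈ univ.filter (fun h => IsPair h i j), dt.r h) +
      (if (i = g.1.2.2 ∧ j = l) ∨ (i = l ∧ j = g.1.2.2) then 1 else 0) +
      (if (i = g.1.1 ∧ j = g.1.2.1) ∨ (i = g.1.2.1 ∧ j = g.1.1) then 1 else 0) := by
  have h2 : ∑ h ∈ univ.filter (fun h => IsPair h i j), (toggle dt g l Q).r h =
      ∑ h ∈ univ.filter (fun h => IsPair h i j), dt.r h +
        (if (i = g.1.1 ∧ j = g.1.2.1) ∨ (i = g.1.2.1 ∧ j = g.1.1) then 1 else 0) := by
    show ∑ h ∈ univ.filter (fun h => IsPair h i j), (dt.r h + if h = g then 1 else 0) = _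
    rw [Finset.sum_add_distrib, Finset.sum_ite_eq']
    congr 1
    refine if_congr ?_ rfl rfl
    rw [Finset.mem_filter]
    constructor
    · rintro ⟨-, (⟨a, b⟩ | ⟨a, b⟩)⟩
      · exact Or.inl ⟨a.symm, b.symm⟩
      · exact Or.inr ⟨b.symm, a.symm⟩
    · rintro (⟨a, b⟩ | ⟨a, b⟩)
      · exact ⟨Finset.mem_univ _, Or.inl ⟨a.symm, b.symm⟩⟩
      · exact ⟨Finset.mem_univ _, Or.inr ⟨b.symm, a.symm⟩⟩
  have h1 : (if i = g.1.2.2 ∧ j = l then (1 : ZMod 2) else 0) +
      (if j = g.1.2.2 ∧ i = l then (1 : ZMod 2) else 0) =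
      (if (i = g.1.2.2 ∧ j = l) ∨ (i = l ∧ j = g.1.2.2) then 1 else 0) := by
    by_cases ha : i = g.1.2.2 ∧ j = l
    · have hb : ¬ (j = g.1.2.2 ∧ i = l) := by
        rintro ⟨c, d⟩
        exact hij (ha.1.trans c.symm)
      rw [if_pos ha, if_neg hb, if_pos (Or.inl ha), add_zero]
    · by_cases hb : j = g.1.2.2 ∧ i = l
      · rw [if_neg ha, if_pos hb, if_pos (Or.inr ⟨hb.2, hb.1⟩), zero_add]
      · rw [if_neg ha, if_neg hb, if_neg, add_zero]
        rintro (h | h)
        · exact ha h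
        · exact hb ⟨h.2, h.1⟩
  rw [h2]
  show (dt.A i j + if i = g.1.2.2 ∧ j = l then 1 else 0) +
    (dt.A j i + if j = g.1.2.2 ∧ i = l then 1 else 0) + _ = _
  rw [← h1]
  ring

/-- CHUNK R290-P-MOVE3. Effect of the toggle on the linear conditions: `NS.par` at `m` changes by 1 (`A m l`) + 1
(`r g`), `NS.ed` changes exactly at `{g.1.1, g.1.2.1}` (`r g`) and at `{m, l}` (`A m l`). `Q` is irrelevant. -/
theorem toggle_ns (dt : Dat C) (g : Helper t) (l : Fin t) (hl : g.1.2.2 ≠ l)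
    (Q : Finset (Fin (C.lab g.1.1 g.1.2.1))) :
    (NS dt (g.1.1, g.1.2.1) → NS (toggle dt g l Q) (g.1.2.2, l)) ∧
    (NS dt (g.1.2.2, l) → NS (toggle dt g l Q) (g.1.1, g.1.2.1)) := by
  constructor
  · intro hN
    refine ⟨hl, fun i => ?_, fun i j hij => ?_⟩
    · rw [toggle_ns_par dt g l hl Q i]
      exact hN.par i
    · rw [toggle_ns_ed dt g l Q i j hij, hN.ed i j hij]
      show (if (i = g.1.1 ∧ j = g.1.2.1) ∨ (i = g.1.2.1 ∧ j = g.1.1) then (1 : ZMod 2) else 0) + _ +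
        _ = if (i = g.1.2.2 ∧ j = l) ∨ (i = l ∧ j = g.1.2.2) then 1 else 0
      have h3 := zmod2_add_self
        (if (i = g.1.1 ∧ j = g.1.2.1) ∨ (i = g.1.2.1 ∧ j = g.1.1) then (1 : ZMod 2) else 0)
      linear_combination h3
  · intro hN
    refine ⟨ne_of_lt g.2.1, fun i => ?_, fun i j hij => ?_⟩
    · rw [toggle_ns_par dt g l hl Q i]
      exact hN.par i
    · rw [toggle_ns_ed dt g l Q i j hij, hN.ed i j hij]
      show (if (i = g.1.2.2 ∧ j = l) ∨ (i = l ∧ j = g.1.2.2) then (1 : ZMod 2) else 0) + _ +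
        _ = if (i = g.1.1 ∧ j = g.1.2.1) ∨ (i = g.1.2.1 ∧ j = g.1.1) then 1 else 0
      have h3 := zmod2_add_self
        (if (i = g.1.2.2 ∧ j = l) ∨ (i = l ∧ j = g.1.2.2) then (1 : ZMod 2) else 0)
      linear_combination h3

end Crest.Agent.PLift
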