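import Crest.Agent.PLift.Move1
import Crest.Agent.PLift.Move2
import Crest.Agent.PLift.Move3
import Crest.Agent.PLift.Cnt1

set_option autoImplicit false
set_option linter.unusedSectionVars false
set_option linter.unusedDecidableInType false

namespace Crest.Agent.PLift

open Crest.WLRefine Crest.WLRefine.ParityLift Finset

variable {t : ℕ} {C : ChoiceSystem t}

/-- `m` is an unpebbled main type -/
def Free (P : Finset (BV C)) (m : Fin t) : Prop := ∀ u ∈ P, typeOf C u ≠ .inl m

private theorem MoveAll_exists_free (P : Finset (BV C)) (hP : P.card < t) :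
    ∃ m : Fin t, Free P m := by
  by_contra h
  push Not at h
  have h1 : ∀ m : Fin t, ∃ u ∈ P, typeOf C u = .inl m := by
    intro m
    have h2 := h m
    unfold Free at h2
    push Not at h2
    exact h2
  choose f hf hf' using h1
  have hinj : Function.Injective f := by
    intro a b hab
    have h3 := hf' a
    rw [hab, hf' b] at h3
    exact (Sum.inl.inj h3).symm
  have h4 : (Finset.univ.image f).card ≤ P.card :=
    Finset.card_le_card (fun u hu => by
      obtain ⟨m, -, rfl⟩ := Finset.mem_image.1 hu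
      exact hf m)
  rw [Finset.card_image_of_injective _ hinj, Finset.card_univ, Fintype.card_fin] at h4
  omega

private theorem MoveAll_valid_swap {a b : Fin t} {P : Finset (BV C)} (h : Valid C (a, b) P) :
    Valid C (b, a) P := fun u hu v hv huv ho => h u hu v hv huv (Or.symm ho)

private theorem MoveAll_free {dt : Dat C} {P : Finset (BV C)} {m l m' l' : Fin t}
    (hm : Free P m) (hm' : Free P m') (hN : NS dt (m, l)) (hl' : m' ≠ l') :
    ∃ dt' : Dat C, NS dt' (m', l') ∧ SameOn P dt dt' := by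
  by_cases h : m = m'
  · subst h
    exact move1 hN hl' P hm
  · obtain ⟨d1, h1, s1⟩ := move1 hN h P hm
    obtain ⟨d2, h2, s2⟩ := move1 h1.swap hl' P hm'
    exact ⟨d2, h2, s1.trans s2⟩

/-- a valid defect at a pair `a < b` of pebbled types can be moved to a free type -/
private theorem MoveAll_b {dt : Dat C} {P : Finset (BV C)} (hP : P.card < t) {a b : Fin t}
    (hab : a < b) (hN : NS dt (a, b)) (hV : Valid C (a, b) P) (ha : ¬ Free P a)
    (hb : ¬ Free P b) :
    ∃ (m l : Fin t) (dt' : Dat C), Free P m ∧ NS dt' (m, l) ∧ SameOn P dt dt' := by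
  unfold Free at ha hb
  push Not at ha hb
  obtain ⟨g, rfl, rfl, hm, hg⟩ := exists_free_helper P hP hab ha hb
  obtain ⟨Q, hQ⟩ := toggle_same dt g g.1.1 P hV hm hg
  exact ⟨g.1.2.2, g.1.1, _, hm, (toggle_ns dt g g.1.1 g.2.2.1 Q).1 hN, hQ⟩

/-- from a defect at a free type to a valid pair `a < b` of pebbled types -/
private theorem MoveAll_c {dt : Dat C} {P : Finset (BV C)} (hP : P.card < t) {a b m l : Fin t}
    (hab : a < b) (hN : NS dt (m, l)) (hfm : Free P m) (hV : Valid C (a, b) P)
    (ha : ¬ Free P a) (hb : ¬ Free P b) :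
    ∃ dt' : Dat C, NS dt' (a, b) ∧ SameOn P dt dt' := by
  unfold Free at ha hb
  push Not at ha hb
  obtain ⟨g, rfl, rfl, hm, hg⟩ := exists_free_helper P hP hab ha hb
  obtain ⟨d1, h1, s1⟩ := MoveAll_free hfm hm hN (l' := g.1.1) g.2.2.1
  obtain ⟨Q, hQ⟩ := toggle_same d1 g g.1.1 P hV hm hg
  exact ⟨_, (toggle_ns d1 g g.1.1 g.2.2.1 Q).2 h1, s1.trans hQ⟩

/-- CHUNK R290-P-MOVEALL. PROOF.
(a) from a valid `D` one reaches some `(m,l)` with `m` free (`D = (m,_)` or `(_,m)` already (`NS.swap`), or both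
members are pebbled: `exists_free_helper` (for the ordered pair), `toggle_same`, `toggle_ns`).
(b) `(m,l) → (m',l')` for free `m, m'`: if `m = m'` one `move1`, else `(m,l) → (m,m')` (`move1`),
swap, `(m',m) → (m',l')` (`move1`).
(c) the target `D'`: if it contains a free type use (b) (and swap), otherwise let `g` be the free helper of `D'` with
third type `m`: by (b) reach `(m, l)`, any `l ≠ m`, then `toggle` backwards.  `t ≥ 2` exists because `D.1 ≠ D.2`.
A free type exists since `|P| < t`. -/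
theorem move_all {dt : Dat C} {D D' : Fin t × Fin t} (P : Finset (BV C)) (hP : P.card < t)
    (hN : NS dt D) (hV : Valid C D P) (hD' : D'.1 ≠ D'.2) (hV' : Valid C D' P) :
    ∃ dt' : Dat C, NS dt' D' ∧ SameOn P dt dt' := by
  obtain ⟨a, b⟩ := D
  obtain ⟨a', b'⟩ := D'
  simp only at hD'
  have hab : a ≠ b := hN.ne
  -- a defect at a free type
  have h1 : ∃ (m l : Fin t) (d1 : Dat C), Free P m ∧ NS d1 (m, l) ∧ SameOn P dt d1 := by
    by_cases ha : Free P a
    · exact ⟨a, b, dt, ha, hN, SameOn.refl P dt⟩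
    by_cases hb : Free P b
    · exact ⟨b, a, dt, hb, hN.swap, SameOn.refl P dt⟩
    rcases lt_or_gt_of_ne hab with h | h
    · exact MoveAll_b hP h hN hV ha hb
    · exact MoveAll_b hP h hN.swap (MoveAll_valid_swap hV) hb ha
  obtain ⟨m, l, d1, hm, hN1, s1⟩ := h1
  have h2 : ∃ d2 : Dat C, NS d2 (a', b') ∧ SameOn P d1 d2 := by
    by_cases ha : Free P a'
    · exact MoveAll_free hm ha hN1 hD'
    by_cases hb : Free P b'
    · obtain ⟨d2, h2, s2⟩ := MoveAll_free hm hb hN1 (Ne.symm hD')
      exact ⟨d2, h2.swap, s2⟩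
    rcases lt_or_gt_of_ne hD' with h | h
    · exact MoveAll_c hP h hN1 hm hV' ha hb
    · obtain ⟨d2, h2, s2⟩ := MoveAll_c hP h hN1 hm (MoveAll_valid_swap hV') hb ha
      exact ⟨d2, h2.swap, s2⟩
  obtain ⟨d2, h2, s2⟩ := h2
  exact ⟨d2, h2, s1.trans s2⟩

end Crest.Agent.PLift
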