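import Crest.Agent.PLift.Defs

set_option autoImplicit false
set_option linter.unusedSectionVars false
set_option linter.unusedDecidableInType false

namespace Crest.Agent.PLift

open Crest.WLRefine Crest.WLRefine.ParityLift Finset

variable {t : ℕ} {C : ChoiceSystem t}

/-- CHUNK R290-P-PAR.  The translation changes the parity exactly at main type 0.
PROOF. Main `u` of type `i`: template neighbours are the mains `j ≠ i` and the helpers `h ∋ i`.
`∑_{j≠i} (A i j + ∑_{h : IsPair h i j} hb u h) + ∑_{h ∋ i} hb u h`; the helpers with `i` in their pair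
occur twice (once in the first sum, with the unique `j` of the pair), the helpers with third type `i`
contribute `r h`; so the sum is the left side of `NS.par`.  Helper `(h,q)`: `p + (r + p) + r = 0`
(its three mains are distinct).
Suggestion: first turn the sum over the subtype `Nbr` into a sum over `univ.filter (tAdj (typeOf C u) ·)`
of `TV t = Fin t ⊕ Helper t` (`Finset.sum_subtype`, `Fintype.sum_sum_type`), with `if`. -/
theorem sv_par {dt : Dat C} {D : Fin t × Fin t} (hN : NS dt D) (u : BV C) :
    ∑ a : Nbr (typeOf C u), sv dt u a.1 = bz (liftStarParity t (typeOf C u)) := by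
  have h1 : ∑ a : Nbr (typeOf C u), sv dt u a.1 =
      ∑ a : TV t, if tAdj (typeOf C u) a = true then sv dt u a else 0 := by
    rw [← Finset.sum_filter]
    exact (Finset.sum_subtype (univ.filter fun a => tAdj (typeOf C u) a = true)
      (fun x => by simp) (fun a => sv dt u a)).symm
  rw [h1, Fintype.sum_sum_type]
  rcases u with u | hq
  · -- main vertex
    set i := u.1 with hi
    have e1 : ∀ j : Fin t, (if tAdj (typeOf C (.inl u)) (.inl j) = true then
        sv dt (.inl u) (.inl j) else 0) =
        (if j ∈ univ.erase i then dt.A i j else 0) +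
          ∑ h : Helper t, if (i ≠ j ∧ IsPair h i j) then hb dt u h else 0 := by
      intro j
      have ha : tAdj (typeOf C (.inl u)) (.inl j) = decide (i ≠ j) := rfl
      rw [ha]
      by_cases hij : i = j
      · subst hij
        simp
      · have hs : sv dt (.inl u) (.inl j) = dt.A i j +
            ∑ h ∈ univ.filter (fun h => IsPair h i j), hb dt u h := rfl
        rw [if_pos (by simpa using hij), hs, if_pos (by simpa using Ne.symm hij),
          Finset.sum_filter]
        congr 1
        refine Finset.sum_congr rfl fun h _ => ?_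
        simp [hij]
    have e2 : ∀ h : Helper t, (if tAdj (typeOf C (.inl u)) (.inr h) = true then
        sv dt (.inl u) (.inr h) else 0) =
        if (i = h.1.1 ∨ i = h.1.2.1 ∨ i = h.1.2.2) then hb dt u h else 0 := by
      intro h
      have ha : tAdj (typeOf C (.inl u)) (.inr h) =
          decide (i = h.1.1 ∨ i = h.1.2.1 ∨ i = h.1.2.2) := rfl
      rw [ha]
      simp only [decide_eq_true_eq]
      rfl
    rw [Finset.sum_congr rfl fun j _ => e1 j, Finset.sum_congr rfl fun h _ => e2 h,
      Finset.sum_add_distrib, Finset.sum_comm, add_assoc, ← Finset.sum_add_distrib]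
    have e3 : ∀ h : Helper t, (∑ j : Fin t, if (i ≠ j ∧ IsPair h i j) then hb dt u h else 0) +
        (if (i = h.1.1 ∨ i = h.1.2.1 ∨ i = h.1.2.2) then hb dt u h else 0) =
        if h.1.2.2 = i then dt.r h else 0 := by
      intro h
      have hab := h.2.1
      have hca := h.2.2.1
      have hcb := h.2.2.2
      have hne : h.1.1 ≠ h.1.2.1 := ne_of_lt hab
      by_cases h1 : i = h.1.1
      · have hs : (∑ j : Fin t, if (i ≠ j ∧ IsPair h i j) then hb dt u h else 0) =
            hb dt u h := by
          rw [Finset.sum_eq_single h.1.2.1]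
          · rw [if_pos]
            exact ⟨by rw [h1]; exact hne, Or.inl ⟨h1.symm, rfl⟩⟩
          · intro j _ hj
            rw [if_neg]
            rintro ⟨h2, h3 | h3⟩
            · exact hj h3.2.symm
            · exact hne (by rw [← h1]; exact h3.2.symm)
          · simp
        rw [hs, if_pos (Or.inl h1), zmod2_add_self, if_neg]
        rw [h1]; exact hca
      · by_cases h2 : i = h.1.2.1
        · have hs : (∑ j : Fin t, if (i ≠ j ∧ IsPair h i j) then hb dt u h else 0) =
              hb dt u h := by
            rw [Finset.sum_eq_single h.1.1]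
            · rw [if_pos]
              exact ⟨by rw [h2]; exact hne.symm, Or.inr ⟨rfl, h2.symm⟩⟩
            · intro j _ hj
              rw [if_neg]
              rintro ⟨h3, h4 | h4⟩
              · exact h1 h4.1.symm
              · exact hj h4.1.symm
            · simp
          rw [hs, if_pos (Or.inr (Or.inl h2)), zmod2_add_self, if_neg]
          rw [h2]; exact hcb
        · have hs : (∑ j : Fin t, if (i ≠ j ∧ IsPair h i j) then hb dt u h else 0) = 0 := by
            refine Finset.sum_eq_zero fun j _ => ?_
            rw [if_neg]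
            rintro ⟨h3, h4 | h4⟩
            · exact h1 h4.1.symm
            · exact h2 h4.2.symm
          rw [hs, zero_add]
          by_cases h3 : i = h.1.2.2
          · rw [if_pos (Or.inr (Or.inr h3)), if_pos h3.symm]
            unfold hb
            rw [dif_neg h1, dif_neg h2, if_pos h3]
          · rw [if_neg (fun h4 => by
              rcases h4 with h4 | h4 | h4
              · exact h1 h4
              · exact h2 h4
              · exact h3 h4), if_neg (fun h4 => h3 h4.symm)]
    rw [Finset.sum_congr rfl fun h _ => e3 h, ← Finset.sum_filter, ← Finset.sum_filter]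
    have e4 : (univ.filter fun j => j ∈ univ.erase i) = univ.erase i := by
      ext j; simp
    rw [e4, hN.par i]
    have e5 : liftStarParity t (typeOf C (.inl u)) = decide (i.1 = 0) := by
      unfold liftStarParity
      rw [decide_eq_decide]
      constructor
      · rintro ⟨h, h2⟩
        have h3 : i = ⟨0, h⟩ := Sum.inl.inj h2
        rw [h3]
      · intro h
        exact ⟨by have := i.2; omega, congrArg Sum.inl (Fin.ext h)⟩
    rw [e5]
    unfold bz
    simp
  · -- helper vertex
    obtain ⟨⟨⟨a, b, c⟩, hab, hca, hcb⟩, q⟩ := hq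
    simp only at hab hca hcb
    have hne : a ≠ b := ne_of_lt hab
    have e2 : ∀ h : Helper t, (if tAdj (typeOf C (.inr ⟨⟨(a, b, c), hab, hca, hcb⟩, q⟩)) (.inr h) =
        true then sv dt (.inr ⟨⟨(a, b, c), hab, hca, hcb⟩, q⟩) (.inr h) else 0) = 0 := by
      intro h
      have ha : tAdj (typeOf C (.inr ⟨⟨(a, b, c), hab, hca, hcb⟩, q⟩)) (.inr h) = false := rfl
      rw [ha]
      simp
    rw [Finset.sum_eq_zero fun h _ => e2 h, add_zero]
    have e1 : ∀ i : Fin t, (if tAdj (typeOf C (.inr ⟨⟨(a, b, c), hab, hca, hcb⟩, q⟩)) (.inl i) =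
        true then sv dt (.inr ⟨⟨(a, b, c), hab, hca, hcb⟩, q⟩) (.inl i) else 0) =
        if i ∈ ({a, b, c} : Finset (Fin t)) then (if i = a then dt.p ⟨(a, b, c), hab, hca, hcb⟩ q
          else if i = b then dt.r ⟨(a, b, c), hab, hca, hcb⟩ + dt.p ⟨(a, b, c), hab, hca, hcb⟩ q
          else dt.r ⟨(a, b, c), hab, hca, hcb⟩) else 0 := by
      intro i
      have ha : tAdj (typeOf C (.inr ⟨⟨(a, b, c), hab, hca, hcb⟩, q⟩)) (.inl i) =
        decide (i = a ∨ i = b ∨ i = c) := rfl
      rw [ha]
      simp only [decide_eq_true_eq, Finset.mem_insert, Finset.mem_singleton]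
      rfl
    rw [Finset.sum_congr rfl fun i _ => e1 i, ← Finset.sum_filter]
    have e4 : (univ.filter fun j => j ∈ ({a, b, c} : Finset (Fin t))) = {a, b, c} := by
      ext j; simp
    rw [e4, Finset.sum_insert (by simp [hne, Ne.symm hca]), Finset.sum_insert (by
      simp [Ne.symm hcb]), Finset.sum_singleton, if_pos rfl, if_neg hne.symm, if_pos rfl,
      if_neg hca, if_neg hcb]
    have e5 : liftStarParity t (typeOf C (.inr ⟨⟨(a, b, c), hab, hca, hcb⟩, q⟩)) = false := by
      unfold liftStarParity
      simp [typeOf]
    rw [e5, bz_false]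
    generalize dt.r ⟨(a, b, c), hab, hca, hcb⟩ = x
    generalize dt.p ⟨(a, b, c), hab, hca, hcb⟩ q = y
    revert x y
    decide

end Crest.Agent.PLift
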