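import Crest.Agent.PLift.RU1
import Crest.Agent.PLift.RU2
import Crest.Agent.PLift.CardEq

set_option autoImplicit false
set_option linter.unusedSectionVars false

namespace Crest.Agent.PLift

open Crest.WLRefine Crest.WLRefine.ParityLift Finset Crest.Agent.WLD

variable {t : ℕ} {C : ChoiceSystem t}

/-- the bijection from the numbering of the disjoint union to the union of the two lifts -/
noncomputable def pureE (C : ChoiceSystem t) :
    Fin (Fintype.card (Fin (Fintype.card (V0 C)) ⊕ Fin (Fintype.card (V1 C)))) ≃ V0 C ⊕ V1 C :=
  (Fintype.equivFin (Fin (Fintype.card (V0 C)) ⊕ Fin (Fintype.card (V1 C)))).symm.trans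
    (Equiv.sumCongr (Fintype.equivFin (V0 C)).symm (Fintype.equivFin (V1 C)).symm)

theorem pureE_adj (C : ChoiceSystem t)
    (a b : Fin (Fintype.card (Fin (Fintype.card (V0 C)) ⊕ Fin (Fintype.card (V1 C))))) :
    asMatrix (unionAdj (asMatrix (liftAdj C (lift0Parity t)))
      (asMatrix (liftAdj C (liftStarParity t)))) a b = adjU (pureE C a) (pureE C b) := by
  obtain ⟨x, rfl⟩ := (Fintype.equivFin
    (Fin (Fintype.card (V0 C)) ⊕ Fin (Fintype.card (V1 C)))).surjective a
  obtain ⟨y, rfl⟩ := (Fintype.equivFin
    (Fin (Fintype.card (V0 C)) ⊕ Fin (Fintype.card (V1 C)))).surjective b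
  unfold pureE asMatrix
  simp only [Equiv.symm_apply_apply, Equiv.trans_apply]
  rcases x with x | x <;> rcases y with y | y <;> rfl

theorem pureE_inl (C : ChoiceSystem t) (x : Fin (Fintype.card (V0 C))) :
    pureE C (Fintype.equivFin _ (Sum.inl x)) = Sum.inl ((Fintype.equivFin (V0 C)).symm x) := by
  simp [pureE]

theorem pureE_inr (C : ChoiceSystem t) (x : Fin (Fintype.card (V1 C))) :
    pureE C (Fintype.equivFin _ (Sum.inr x)) = Sum.inr ((Fintype.equivFin (V1 C)).symm x) := by
  simp [pureE]

/-- CHUNK R290-P-PUREJ. PROOF. Let `U = asMatrix (unionAdj G H)` on `Fin N`,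
`conv : Fin N → V0 C ⊕ V1 C := Sum.map e0.symm e1.symm ∘ eU.symm` (a bijection carrying `U` to `adjU`).
(1) `JStab.of_rel` for `U`, `U` with `R x y := RUJ univ (conv ∘ x) (conv ∘ y)` (`RUJ_atomic`, `RUJ_step` with `J = univ`).
(2) `exists_tuple_equiv` (WLD/BF.lean) for `R' v w := RUJ univ (fun i => .inl (e0.symm (v i))) (fun i => .inr (e1.symm (w i)))`
gives a bijection `F` of pure tuples with `R' v (F v)`; by (1) the colours in `U` agree; `map_univ_eq_of_equiv`.
Empty case as in `dupJ`. -/
theorem pureJ (k : ℕ) (hk : 1 ≤ k) (C : ChoiceSystem (k + 1)) (hS : ¬ C.Successful) :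
    PureJEquiv k (asMatrix (liftAdj C (lift0Parity (k + 1)))) (asMatrix (liftAdj C (liftStarParity (k + 1)))) := by
  classical
  have ht : 2 ≤ k + 1 := by omega
  rcases isEmpty_or_nonempty (V0 C) with hE | ⟨⟨a⟩⟩
  · have h0 : Fintype.card (LiftV C (lift0Parity (k + 1))) = 0 := Fintype.card_eq_zero_iff.2 hE
    have h1 : Fintype.card (LiftV C (liftStarParity (k + 1))) = 0 := by
      rw [← card_lift_eq ht C, h0]
    have hk0 : 0 < k := by omega
    intro s
    have e0 : (univ : Finset (Fin k → Fin (Fintype.card (LiftV C (lift0Parity (k + 1)))))) = ∅ := by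
      rw [Finset.univ_eq_empty_iff]
      refine ⟨fun f => ?_⟩
      have := (f ⟨0, hk0⟩).2
      omega
    have e1 : (univ : Finset (Fin k → Fin (Fintype.card (LiftV C (liftStarParity (k + 1)))))) = ∅ := by
      rw [Finset.univ_eq_empty_iff]
      refine ⟨fun f => ?_⟩
      have := (f ⟨0, hk0⟩).2
      omega
    unfold PureJHistEq
    rw [e0, e1]
    simp
  · set e0 := Fintype.equivFin (V0 C) with he0
    set e1 := Fintype.equivFin (V1 C) with he1
    -- (1)
    have hstab : ∀ x y, RUJ (k := k) univ (fun i => pureE C (x i)) (fun i => pureE C (y i)) →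
        JStab k (asMatrix (unionAdj (asMatrix (liftAdj C (lift0Parity (k + 1))))
          (asMatrix (liftAdj C (liftStarParity (k + 1))))))
          (asMatrix (unionAdj (asMatrix (liftAdj C (lift0Parity (k + 1))))
          (asMatrix (liftAdj C (liftStarParity (k + 1)))))) x y := by
      intro x y hxy
      refine JStab.of_rel
        (R := fun x y => RUJ (k := k) univ (fun i => pureE C (x i)) (fun i => pureE C (y i)))
        ?_ ?_ hxy
      · intro x y hR
        have hat := fun i j => RUJ_atomic hR i j
        refine Prod.ext ?_ ?_
        · funext i j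
          refine decide_eq_decide.2 ?_
          have := (hat i j).1
          rw [(pureE C).injective.eq_iff, (pureE C).injective.eq_iff] at this
          exact this
        · funext i j
          have := (hat i j).2
          rw [← pureE_adj, ← pureE_adj] at this
          exact this
      · intro x y hR
        have hJ : (univ : Finset (Fin k)).card < k + 1 := by
          rw [Finset.card_univ, Fintype.card_fin]
          omega
        obtain ⟨g0, g1, hg⟩ := RUJ_step ht hS univ hJ hR
        refine ⟨(pureE C).trans ((swapE g0 g1).trans (pureE C).symm), fun z i => ?_⟩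
        have := hg (pureE C z) i (Finset.subset_univ _)
        have h1 : (fun j => pureE C (Function.update x i z j)) =
            Function.update (fun j => pureE C (x j)) i (pureE C z) := by
          funext j
          by_cases hj : j = i
          · subst hj; simp
          · simp [Function.update_of_ne hj]
        have h2 : (fun j => pureE C (Function.update y i
            (((pureE C).trans ((swapE g0 g1).trans (pureE C).symm)) z) j)) =
            Function.update (fun j => pureE C (y j)) i (swapE g0 g1 (pureE C z)) := by
          funext j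
          by_cases hj : j = i
          · subst hj; simp
          · simp [Function.update_of_ne hj]
        show RUJ univ (fun j => pureE C (Function.update x i z j)) _
        rw [h1, h2]
        exact this
    -- (2)
    obtain ⟨b, hb⟩ := RUJ_const (k := k) ht a
    have hstart : RUJ (k := k) univ
        (fun i => (Sum.inl (e0.symm ((fun _ => e0 a : Fin k → _) i)) : V0 C ⊕ V1 C))
        (fun i => (Sum.inr (e1.symm ((fun _ => e1 b : Fin k → _) i)) : V0 C ⊕ V1 C)) := by
      simpa using hb
    obtain ⟨F, hF⟩ := exists_tuple_equiv
      (fun (v : Fin k → Fin (Fintype.card (V0 C))) (w : Fin k → Fin (Fintype.card (V1 C))) =>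
        RUJ univ (fun i => (Sum.inl (e0.symm (v i)) : V0 C ⊕ V1 C))
        (fun i => (Sum.inr (e1.symm (w i)) : V0 C ⊕ V1 C)))
      (by
        intro v w hR i
        have hJ : (univ : Finset (Fin k)).card < k + 1 := by
          rw [Finset.card_univ, Fintype.card_fin]
          omega
        obtain ⟨g0, g1, hg⟩ := RUJ_step ht hS univ hJ hR
        refine ⟨e0.symm.trans (g0.trans e1), fun z => ?_⟩
        have := hg (Sum.inl (e0.symm z)) i (Finset.subset_univ _)
        rw [swapE_inl] at this
        have h1 : (fun j => (Sum.inl (e0.symm (Function.update v i z j)) : V0 C ⊕ V1 C)) =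
            Function.update (fun j => Sum.inl (e0.symm (v j))) i (Sum.inl (e0.symm z)) := by
          funext j
          by_cases hj : j = i
          · subst hj; simp
          · simp [Function.update_of_ne hj]
        have h2 : (fun j => (Sum.inr (e1.symm (Function.update w i
            ((e0.symm.trans (g0.trans e1)) z) j)) : V0 C ⊕ V1 C)) =
            Function.update (fun j => Sum.inr (e1.symm (w j))) i (Sum.inr (g0 (e0.symm z))) := by
          funext j
          by_cases hj : j = i
          · subst hj; simp
          · simp [Function.update_of_ne hj]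
        show RUJ univ (fun j => (Sum.inl (e0.symm (Function.update v i z j)) : V0 C ⊕ V1 C)) _
        rw [h1, h2]
        exact this) hstart
    intro s
    unfold PureJHistEq
    refine map_univ_eq_of_equiv _ _ F fun v => ?_
    refine hstab _ _ ?_ s
    have := hF v
    have h1 : (fun i => pureE C ((Fintype.equivFin _ ∘ Sum.inl ∘ v) i)) =
        fun i => (Sum.inl (e0.symm (v i)) : V0 C ⊕ V1 C) := by
      funext i
      exact pureE_inl C (v i)
    have h2 : (fun i => pureE C ((Fintype.equivFin _ ∘ Sum.inr ∘ F v) i)) =
        fun i => (Sum.inr (e1.symm (F v i)) : V0 C ⊕ V1 C) := by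
      funext i
      exact pureE_inr C (F v i)
    rw [h1, h2]
    exact this

end Crest.Agent.PLift
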