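import Crest.Agent.PLift.RU1
import Crest.Agent.PLift.RU2
import Crest.Agent.PLift.CardEq

set_option autoImplicit false
set_option linter.unusedSectionVars false

namespace Crest.Agent.PLift

open Crest.WLRefine Crest.WLRefine.ParityLift Finset Crest.Agent.WLD

variable {t : ℕ} {C : ChoiceSystem t}

/-- the enumeration of the disjoint union -/
noncomputable def pureS_convE (C : ChoiceSystem t) :
    Fin (Fintype.card (Fin (Fintype.card (LiftV C (lift0Parity t))) ⊕
      Fin (Fintype.card (LiftV C (liftStarParity t))))) ≃ V0 C ⊕ V1 C :=
  (Fintype.equivFin _).symm.trans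
    (Equiv.sumCongr (Fintype.equivFin _).symm (Fintype.equivFin _).symm)

theorem pureS_convE_adj (C : ChoiceSystem t) (a b : Fin (Fintype.card
    (Fin (Fintype.card (LiftV C (lift0Parity t))) ⊕
      Fin (Fintype.card (LiftV C (liftStarParity t)))))) :
    asMatrix (unionAdj (asMatrix (liftAdj C (lift0Parity t)))
      (asMatrix (liftAdj C (liftStarParity t)))) a b = adjU (pureS_convE C a) (pureS_convE C b) := by
  unfold asMatrix pureS_convE
  simp only [Equiv.trans_apply]
  generalize (Fintype.equivFin (Fin (Fintype.card (LiftV C (lift0Parity t))) ⊕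
      Fin (Fintype.card (LiftV C (liftStarParity t))))).symm a = p
  generalize (Fintype.equivFin (Fin (Fintype.card (LiftV C (lift0Parity t))) ⊕
      Fin (Fintype.card (LiftV C (liftStarParity t))))).symm b = q
  rcases p with p | p <;> rcases q with q | q <;> rfl

@[simp] theorem pureS_convE_inl (C : ChoiceSystem t) (v : Fin (Fintype.card (LiftV C (lift0Parity t)))) :
    pureS_convE C (Fintype.equivFin _ (Sum.inl v)) = Sum.inl ((Fintype.equivFin _).symm v) := by
  simp [pureS_convE]

@[simp] theorem pureS_convE_inr (C : ChoiceSystem t)
    (v : Fin (Fintype.card (LiftV C (liftStarParity t)))) :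
    pureS_convE C (Fintype.equivFin _ (Sum.inr v)) = Sum.inr ((Fintype.equivFin _).symm v) := by
  simp [pureS_convE]

/-- CHUNK R290-P-PURES. Same in the separate convention. -/
theorem pureS (k : ℕ) (hk : 2 ≤ k) (C : ChoiceSystem k) (hS : ¬ C.Successful) :
    PureSEquiv k (asMatrix (liftAdj C (lift0Parity k))) (asMatrix (liftAdj C (liftStarParity k))) := by
  classical
  rcases isEmpty_or_nonempty (V0 C) with hE | ⟨⟨a⟩⟩
  · have h0 : Fintype.card (LiftV C (lift0Parity k)) = 0 := Fintype.card_eq_zero_iff.2 hE
    have h1 : Fintype.card (LiftV C (liftStarParity k)) = 0 := by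
      rw [← card_lift_eq hk C, h0]
    have hk0 : 0 < k := by omega
    intro s
    have e0 : (univ : Finset (Fin k → Fin (Fintype.card (LiftV C (lift0Parity k))))) = ∅ := by
      rw [Finset.univ_eq_empty_iff]
      refine ⟨fun f => ?_⟩
      have := (f ⟨0, hk0⟩).2
      omega
    have e1 : (univ : Finset (Fin k → Fin (Fintype.card (LiftV C (liftStarParity k))))) = ∅ := by
      rw [Finset.univ_eq_empty_iff]
      refine ⟨fun f => ?_⟩
      have := (f ⟨0, hk0⟩).2
      omega
    unfold PureSHistEq
    rw [e0, e1]
    simp
  · set e0 := Fintype.equivFin (LiftV C (lift0Parity k)) with he0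
    set e1 := Fintype.equivFin (LiftV C (liftStarParity k)) with he1
    have hJ : ∀ i, (univ.erase i : Finset (Fin k)).card < k := by
      intro i
      rw [Finset.card_erase_of_mem (Finset.mem_univ i), Finset.card_univ, Fintype.card_fin]
      omega
    obtain ⟨b, hb⟩ := RUJ_const (k := k) hk a
    have hstart : RUJ (k := k) univ
        (fun i => (Sum.inl (e0.symm ((fun _ => e0 a : Fin k → _) i)) : V0 C ⊕ V1 C))
        (fun i => (Sum.inr (e1.symm ((fun _ => e1 b : Fin k → _) i)) : V0 C ⊕ V1 C)) := by
      simpa using hb
    obtain ⟨F, hF⟩ := exists_tuple_equiv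
      (R := fun v w => RUJ univ (fun i => (Sum.inl (e0.symm (v i)) : V0 C ⊕ V1 C))
        (fun i => (Sum.inr (e1.symm (w i)) : V0 C ⊕ V1 C))) (by
      intro v w hR i
      obtain ⟨g0, g1, hg⟩ := RUJ_step hk hS (univ.erase i) (hJ i)
        (RUJ.mono (Finset.erase_subset i univ) hR)
      refine ⟨e0.symm.trans (g0.trans e1), fun z => ?_⟩
      have := hg (Sum.inl (e0.symm z)) i (Finset.Subset.refl _)
      rw [swapE_inl] at this
      have h1 : (fun j => (Sum.inl (e0.symm (Function.update v i z j)) : V0 C ⊕ V1 C)) =
          Function.update (fun j => Sum.inl (e0.symm (v j))) i (Sum.inl (e0.symm z)) := by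
        funext j
        by_cases hj : j = i
        · subst hj; simp
        · simp [Function.update_of_ne hj]
      have h2 : (fun j => (Sum.inr (e1.symm (Function.update w i
          ((e0.symm.trans (g0.trans e1)) z) j)) : V0 C ⊕ V1 C)) =
          Function.update (fun j => Sum.inr (e1.symm (w j))) i (Sum.inr (g0 (e0.symm z))) := by
        funext j
        by_cases hj : j = i
        · subst hj; simp
        · simp [Function.update_of_ne hj]
      show RUJ univ (fun j => (Sum.inl (e0.symm (Function.update v i z j)) : V0 C ⊕ V1 C)) _
      rw [h1, h2]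
      exact this) hstart
    intro s
    refine map_univ_eq_of_equiv _ _ F fun v => ?_
    refine SStab.of_rel (R := fun x y => RUJ univ (fun i => pureS_convE C (x i))
      (fun i => pureS_convE C (y i))) ?_ ?_ (v := Fintype.equivFin _ ∘ Sum.inl ∘ v)
      (w := Fintype.equivFin _ ∘ Sum.inr ∘ F v) ?_ s
    · intro x y hR
      have hat := fun i j => RUJ_atomic hR i j
      refine Prod.ext ?_ ?_
      · funext i j
        refine decide_eq_decide.2 ?_
        have := (hat i j).1
        rw [(pureS_convE C).injective.eq_iff, (pureS_convE C).injective.eq_iff] at this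
        exact this
      · funext i j
        have h := (hat i j).2
        rw [← pureS_convE_adj, ← pureS_convE_adj] at h
        exact h
    · intro x y hR i
      obtain ⟨g0, g1, hg⟩ := RUJ_step hk hS (univ.erase i) (hJ i)
        (RUJ.mono (Finset.erase_subset i univ) hR)
      refine ⟨((pureS_convE C).trans (swapE g0 g1)).trans (pureS_convE C).symm, fun z => ?_⟩
      have := hg (pureS_convE C z) i (Finset.Subset.refl _)
      have h1 : (fun j => pureS_convE C (Function.update x i z j)) =
          Function.update (fun j => pureS_convE C (x j)) i (pureS_convE C z) := by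
        funext j
        by_cases hj : j = i
        · subst hj; simp
        · simp [Function.update_of_ne hj]
      have h2 : (fun j => pureS_convE C (Function.update y i
          ((((pureS_convE C).trans (swapE g0 g1)).trans (pureS_convE C).symm) z) j)) =
          Function.update (fun j => pureS_convE C (y j)) i (swapE g0 g1 (pureS_convE C z)) := by
        funext j
        by_cases hj : j = i
        · subst hj; simp
        · simp [Function.update_of_ne hj]
      show RUJ univ (fun j => pureS_convE C (Function.update x i z j)) _
      rw [h1, h2]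
      exact this
    · have := hF v
      simpa [Function.comp] using this

end Crest.Agent.PLift
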