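import Crest.Agent.PLift.Step

/-! Duplicator in the disjoint union of the two lifts (sides are exchanged). -/

set_option autoImplicit false
set_option linter.unusedSectionVars false

namespace Crest.Agent.PLift

open Crest.WLRefine Crest.WLRefine.ParityLift Finset

variable {t : ℕ} (C : ChoiceSystem t)

abbrev V0 : Type := LiftV C (lift0Parity t)
abbrev V1 : Type := LiftV C (liftStarParity t)

variable {C}

/-- base vertex of a vertex of the union -/
def baseU : V0 C ⊕ V1 C → BV C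
  | .inl a => a.1.1
  | .inr b => b.1.1

/-- adjacency of the union -/
def adjU : V0 C ⊕ V1 C → V0 C ⊕ V1 C → Bool
  | .inl a, .inl a' => liftAdj C _ a a'
  | .inr b, .inr b' => liftAdj C _ b b'
  | _, _ => false

/-- act with one near-solution on each side, exchanging the sides -/
def swapAct {dt0 dt1 : Dat C} {D0 D1 : Fin t × Fin t} (h0 : NS dt0 D0) (h1 : NS dt1 D1) :
    V0 C ⊕ V1 C → V0 C ⊕ V1 C
  | .inl a => .inr (actFun parDiff_0s h0 a)
  | .inr b => .inl (actFun parDiff_s0 h1 b)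

/-- exchange of the sides by two bijections -/
def swapE (g0 : V0 C ≃ V1 C) (g1 : V1 C ≃ V0 C) : V0 C ⊕ V1 C ≃ V0 C ⊕ V1 C :=
  (Equiv.sumCongr g0 g1).trans (Equiv.sumComm _ _)

@[simp] theorem swapE_inl (g0 : V0 C ≃ V1 C) (g1 : V1 C ≃ V0 C) (a : V0 C) :
    swapE g0 g1 (.inl a) = .inr (g0 a) := rfl

@[simp] theorem swapE_inr (g0 : V0 C ≃ V1 C) (g1 : V1 C ≃ V0 C) (b : V1 C) :
    swapE g0 g1 (.inr b) = .inl (g1 b) := rfl

variable {k : ℕ}

/-- base vertices of the entries `x i`, `i ∈ J`, on side `ε` -/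
def SS (J : Finset (Fin k)) (x : Fin k → V0 C ⊕ V1 C) (ε : Bool) : Finset (BV C) :=
  (J.filter fun i => (x i).isRight = ε).image fun i => baseU (x i)

/-- the Duplicator relation, on the coordinates in `J` -/
def RUJ (J : Finset (Fin k)) (x y : Fin k → V0 C ⊕ V1 C) : Prop :=
  ∃ (dt0 : Dat C) (D0 : Fin t × Fin t) (h0 : NS dt0 D0) (dt1 : Dat C) (D1 : Fin t × Fin t)
    (h1 : NS dt1 D1), Valid C D0 (SS J x false) ∧ Valid C D1 (SS J x true) ∧
      ∀ i ∈ J, y i = swapAct h0 h1 (x i)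

end Crest.Agent.PLift
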