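import Crest.Agent.PLift.RU0

set_option autoImplicit false
set_option linter.unusedSectionVars false

namespace Crest.Agent.PLift

open Crest.WLRefine Crest.WLRefine.ParityLift Finset

variable {t : ℕ} {C : ChoiceSystem t} {k : ℕ}

private theorem RU1_valid_mono {D : Fin t × Fin t} {P P' : Finset (BV C)} (h : P' ⊆ P)
    (hV : Valid C D P) : Valid C D P' :=
  fun u hu v hv huv => hV u (h hu) v (h hv) huv

private theorem RU1_mem_SS {J : Finset (Fin k)} {x : Fin k → V0 C ⊕ V1 C} {ε : Bool} {j : Fin k}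
    (hj : j ∈ J) (hε : (x j).isRight = ε) : baseU (x j) ∈ SS J x ε :=
  Finset.mem_image.2 ⟨j, Finset.mem_filter.2 ⟨hj, hε⟩, rfl⟩

private theorem RU1_card_SS (J : Finset (Fin k)) (x : Fin k → V0 C ⊕ V1 C) (ε : Bool) :
    (SS J x ε).card ≤ J.card :=
  Finset.card_image_le.trans (Finset.card_filter_le _ _)

/-- CHUNK R290-P-RU1. monotonicity in `J` (easy) -/
theorem RUJ.mono {J J' : Finset (Fin k)} (h : J' ⊆ J) {x y : Fin k → V0 C ⊕ V1 C}
    (hR : RUJ J x y) : RUJ J' x y := by
  obtain ⟨dt0, D0, h0, dt1, D1, h1, hV0, hV1, hy⟩ := hR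
  have hs : ∀ ε, SS J' x ε ⊆ SS J x ε := fun ε =>
    Finset.image_subset_image (Finset.filter_subset_filter _ h)
  exact ⟨dt0, D0, h0, dt1, D1, h1, RU1_valid_mono (hs _) hV0, RU1_valid_mono (hs _) hV1,
    fun i hi => hy i (h hi)⟩

/-- the entries of the new position over the other side are old -/
private theorem RU1_sub_old {J : Finset (Fin k)} (x : Fin k → V0 C ⊕ V1 C) (z : V0 C ⊕ V1 C)
    (i : Fin k) (hi : univ.erase i ⊆ J) (ε : Bool) (hz : z.isRight ≠ ε) :
    SS univ (Function.update x i z) ε ⊆ SS J x ε := by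
  intro u hu
  obtain ⟨j, hj, rfl⟩ := Finset.mem_image.1 hu
  have hj2 := (Finset.mem_filter.1 hj).2
  by_cases hji : j = i
  · subst hji
    rw [Function.update_self] at hj2
    exact absurd hj2 hz
  · rw [Function.update_of_ne hji] at hj2 ⊢
    exact RU1_mem_SS (hi (Finset.mem_erase.2 ⟨hji, Finset.mem_univ _⟩)) hj2

private theorem RU1_sub_new {J : Finset (Fin k)} (x : Fin k → V0 C ⊕ V1 C) (z : V0 C ⊕ V1 C)
    (i : Fin k) (hi : univ.erase i ⊆ J) (ε : Bool) :
    SS univ (Function.update x i z) ε ⊆ insert (baseU z) (SS J x ε) := by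
  intro u hu
  obtain ⟨j, hj, rfl⟩ := Finset.mem_image.1 hu
  have hj2 := (Finset.mem_filter.1 hj).2
  by_cases hji : j = i
  · subst hji
    rw [Function.update_self]
    exact Finset.mem_insert_self _ _
  · rw [Function.update_of_ne hji] at hj2 ⊢
    exact Finset.mem_insert_of_mem
      (RU1_mem_SS (hi (Finset.mem_erase.2 ⟨hji, Finset.mem_univ _⟩)) hj2)

/-- CHUNK R290-P-RU1. PROOF. Apply `step` on side 0 with `P = SS J x false` and on side 1 with
`P = SS J x true` (`card ≤ J.card < t`); this gives `g0`, `g1`.  For `z` on side 0 with base `u0` use the new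
`dt'` on side 0 and the old one on side 1; `SS univ (update x i z) false ⊆ insert u0 (SS J x false)` and
`SS univ (update x i z) true ⊆ SS J x true` because `univ.erase i ⊆ J`; the entries `j ≠ i` are unchanged since
`actFun` depends only on the bits at the base vertex (`actFun_congr`, `SameOn`). -/
theorem RUJ_step (ht : 2 ≤ t) (hS : ¬ C.Successful) (J : Finset (Fin k)) (hJ : J.card < t)
    {x y : Fin k → V0 C ⊕ V1 C} (hR : RUJ J x y) :
    ∃ (g0 : V0 C ≃ V1 C) (g1 : V1 C ≃ V0 C), ∀ (z : V0 C ⊕ V1 C) (i : Fin k),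
      univ.erase i ⊆ J → RUJ univ (Function.update x i z) (Function.update y i (swapE g0 g1 z)) := by
  obtain ⟨dt0, D0, h0, dt1, D1, h1, hV0, hV1, hy⟩ := hR
  obtain ⟨g0, hg0⟩ := step ht hS parDiff_0s parDiff_s0 (SS J x false)
    (lt_of_le_of_lt (RU1_card_SS J x false) hJ) h0 hV0
  obtain ⟨g1, hg1⟩ := step ht hS parDiff_s0 parDiff_0s (SS J x true)
    (lt_of_le_of_lt (RU1_card_SS J x true) hJ) h1 hV1
  refine ⟨g0, g1, fun z i hi => ?_⟩
  rcases z with a | b
  · obtain ⟨dt0', D0', h0', hV0', hs, hg⟩ := hg0 a.1.1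
    refine ⟨dt0', D0', h0', dt1, D1, h1, ?_, ?_, ?_⟩
    · exact RU1_valid_mono (RU1_sub_new x (.inl a) i hi false) hV0'
    · exact RU1_valid_mono (RU1_sub_old x (.inl a) i hi true (by simp)) hV1
    · intro j _
      by_cases hji : j = i
      · subst hji
        rw [Function.update_self, Function.update_self, swapE_inl, hg a rfl]
        rfl
      · have hjJ : j ∈ J := hi (Finset.mem_erase.2 ⟨hji, Finset.mem_univ _⟩)
        rw [Function.update_of_ne hji, Function.update_of_ne hji, hy j hjJ]
        cases hx : x j with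
        | inl c =>
          refine congrArg Sum.inr (actFun_congr _ _ _ c fun e he => hs c.1.1 ?_ e he)
          have := RU1_mem_SS (x := x) (ε := false) hjJ (by rw [hx]; rfl)
          rw [hx] at this
          exact this
        | inr c => rfl
  · obtain ⟨dt1', D1', h1', hV1', hs, hg⟩ := hg1 b.1.1
    refine ⟨dt0, D0, h0, dt1', D1', h1', ?_, ?_, ?_⟩
    · exact RU1_valid_mono (RU1_sub_old x (.inr b) i hi false (by simp)) hV0
    · exact RU1_valid_mono (RU1_sub_new x (.inr b) i hi true) hV1'
    · intro j _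
      by_cases hji : j = i
      · subst hji
        rw [Function.update_self, Function.update_self, swapE_inr, hg b rfl]
        rfl
      · have hjJ : j ∈ J := hi (Finset.mem_erase.2 ⟨hji, Finset.mem_univ _⟩)
        rw [Function.update_of_ne hji, Function.update_of_ne hji, hy j hjJ]
        cases hx : x j with
        | inl c => rfl
        | inr c =>
          refine congrArg Sum.inl (actFun_congr _ _ _ c fun e he => hs c.1.1 ?_ e he)
          have := RU1_mem_SS (x := x) (ε := true) hjJ (by rw [hx]; rfl)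
          rw [hx] at this
          exact this

end Crest.Agent.PLift
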