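import Crest.Agent.PLift.HomDefs

set_option autoImplicit false
set_option linter.unusedSectionVars false

namespace Crest.Agent.PLift

open Crest.WLRefine Crest.WLRefine.ParityLift Finset Crest.Agent.WLD

variable {n m t k : ℕ}

/-- CHUNK R290-P-SP1.  Round 1 joint colours determine the triple codegrees.  PROOF. `jcolor_succ_iff`
(WLD/BF.lean) gives a bijection `f` with equal atomic types of `update v i z` and `update w i (f z)` for all `z, i`;
the adjacency of `z` to `v a` is visible for every `i ≠ a` (`k ≥ 2`). -/
theorem jcolor1_cn (hk : 2 ≤ k) {G : Fin n → Fin n → Bool} {H : Fin m → Fin m → Bool}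
    {v : Fin k → Fin n} {w : Fin k → Fin m} (h : jcolor G k 1 v = jcolor H k 1 w) (a b c : Fin k) :
    cn G (v a) (v b) (v c) = cn H (w a) (w b) (w c) := by
  obtain ⟨-, f, hf⟩ := (jcolor_succ_iff 0 v w).1 h
  have key : ∀ (z : Fin n) (a : Fin k), G z (v a) = H (f z) (w a) := by
    intro z a
    obtain ⟨i, hi⟩ : ∃ i : Fin k, i ≠ a := by
      have : Nontrivial (Fin k) := Fin.nontrivial_iff_two_le.2 hk
      exact exists_ne a
    have h1 : atomicType G (Function.update v i z) =
      atomicType H (Function.update w i (f z)) := hf z i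
    have h2 : G (Function.update v i z i) (Function.update v i z a) =
      H (Function.update w i (f z) i) (Function.update w i (f z) a) :=
      congrFun (congrFun (congrArg Prod.snd h1) i) a
    rwa [Function.update_self, Function.update_self, Function.update_of_ne hi.symm,
      Function.update_of_ne hi.symm] at h2
  unfold cn
  refine Finset.card_equiv f (fun z => ?_)
  simp only [mem_filter, mem_univ, true_and, key]

theorem sp1_exists_ne_ne (hk : 3 ≤ k) (a b : Fin k) : ∃ i : Fin k, i ≠ a ∧ i ≠ b := by
  by_contra hcon
  push Not at hcon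
  have h1 : (univ : Finset (Fin k)) ⊆ {a, b} := by
    intro i _
    rw [mem_insert, mem_singleton]
    by_cases h : i = a
    · exact Or.inl h
    · exact Or.inr (hcon i h)
  have h2 := (card_le_card h1).trans (card_le_two)
  rw [card_univ, Fintype.card_fin] at h2
  omega

/-- CHUNK R290-P-SP1. PROOF. `jcolor_succ_iff` at round 2: `jcolor _ 1 v = jcolor _ 1 w` and a bijection `f` with
`jcolor _ 1 (update v i z) = jcolor _ 1 (update w i (f z))`.  Termwise `homW G (ext v z) = homW H (ext w (f z))`:
cliques from atomic types; triples inside `v` from `jcolor1_cn` for `v`; a triple containing `z` and `v a, v b`: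
`jcolor1_cn` for `update v i z` with `i ≠ a, b` (`k ≥ 3`).  (All helpers have three distinct mains.) -/
theorem jcolor2_homW (hk : 3 ≤ k) {G : Fin n → Fin n → Bool} {H : Fin m → Fin m → Bool}
    {v : Fin k → Fin n} {w : Fin k → Fin m} (h : jcolor G k 2 v = jcolor H k 2 w) :
    ∑ z, homW G (ext v z) = ∑ z, homW H (ext w z) := by
  obtain ⟨hv, f, hf⟩ := (jcolor_succ_iff 1 v w).1 h
  rw [← Equiv.sum_comp f]
  refine Finset.sum_congr rfl (fun z _ => ?_)
  have hlast : ∀ (u : Fin k → Fin n), ext u z (Fin.last k) = z := fun u => Fin.snoc_last _ _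
  have hlast' : ∀ (u : Fin k → Fin m), ext u (f z) (Fin.last k) = f z := fun u => Fin.snoc_last _ _
  have hc : ∀ a : Fin k, ext v z a.castSucc = v a := fun a =>
    Fin.snoc_castSucc (α := fun _ => Fin n) _ _ a
  have hc' : ∀ a : Fin k, ext w (f z) a.castSucc = w a := fun a =>
    Fin.snoc_castSucc (α := fun _ => Fin m) _ _ a
  -- positions visible in an update
  have hpos : ∀ (i : Fin k) (p : Fin (k + 1)), p ≠ i.castSucc →
      ∃ a : Fin k, ext v z p = Function.update v i z a ∧
        ext w (f z) p = Function.update w i (f z) a := by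
    intro i p hp
    induction p using Fin.lastCases with
    | last => exact ⟨i, by rw [hlast, Function.update_self], by rw [hlast', Function.update_self]⟩
    | cast a =>
      have hai : a ≠ i := fun e => hp (by rw [e])
      exact ⟨a, by rw [hc, Function.update_of_ne hai], by rw [hc', Function.update_of_ne hai]⟩
  have hadj : ∀ p q : Fin (k + 1), G (ext v z p) (ext v z q) = H (ext w (f z) p) (ext w (f z) q) := by
    intro p q
    have hat : ∀ (i : Fin k), p ≠ i.castSucc → q ≠ i.castSucc →
        G (ext v z p) (ext v z q) = H (ext w (f z) p) (ext w (f z) q) := by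
      intro i hp hq
      obtain ⟨a, ha, ha'⟩ := hpos i p hp
      obtain ⟨b, hb, hb'⟩ := hpos i q hq
      rw [ha, ha', hb, hb']
      have h1 : atomicType G (Function.update v i z) =
        atomicType H (Function.update w i (f z)) := congrArg Prod.fst (hf z i)
      exact congrFun (congrFun (congrArg Prod.snd h1) a) b
    obtain ⟨a, ha⟩ : ∃ a : Fin k, p ≠ Fin.last k → p = a.castSucc := by
      by_cases hp : p = Fin.last k
      · exact ⟨⟨0, by omega⟩, fun h => absurd hp h⟩
      · exact ⟨p.castPred hp, fun _ => (Fin.castSucc_castPred p hp).symm⟩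
    obtain ⟨b, hb⟩ : ∃ a : Fin k, q ≠ Fin.last k → q = a.castSucc := by
      by_cases hp : q = Fin.last k
      · exact ⟨⟨0, by omega⟩, fun h => absurd hp h⟩
      · exact ⟨q.castPred hp, fun _ => (Fin.castSucc_castPred q hp).symm⟩
    obtain ⟨i, hia, hib⟩ := sp1_exists_ne_ne hk a b
    refine hat i ?_ ?_
    · by_cases hp : p = Fin.last k
      · rw [hp]; exact (Fin.castSucc_lt_last i).ne'
      · rw [ha hp]
        exact fun e => hia (Fin.castSucc_injective _ e).symm
    · by_cases hp : q = Fin.last k
      · rw [hp]; exact (Fin.castSucc_lt_last i).ne'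
      · rw [hb hp]
        exact fun e => hib (Fin.castSucc_injective _ e).symm
  have hcn1 : ∀ (i : Fin k) (p q r : Fin (k + 1)), p ≠ i.castSucc → q ≠ i.castSucc →
      r ≠ i.castSucc → cn G (ext v z p) (ext v z q) (ext v z r) =
        cn H (ext w (f z) p) (ext w (f z) q) (ext w (f z) r) := by
    intro i p q r hp hq hr
    obtain ⟨a, ha, ha'⟩ := hpos i p hp
    obtain ⟨b, hb, hb'⟩ := hpos i q hq
    obtain ⟨c, hc, hc'⟩ := hpos i r hr
    rw [ha, ha', hb, hb', hc, hc']
    exact jcolor1_cn (by omega) (hf z i) a b c
  have hcn : ∀ p q r : Fin (k + 1), p ≠ q → r ≠ p → r ≠ q →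
      cn G (ext v z p) (ext v z q) (ext v z r) =
        cn H (ext w (f z) p) (ext w (f z) q) (ext w (f z) r) := by
    intro p q r hpq hrp hrq
    have hne : ∀ (i j : Fin k), i ≠ j → j.castSucc ≠ i.castSucc := fun i j hij e =>
      hij (Fin.castSucc_injective _ e).symm
    have hl : ∀ i : Fin k, Fin.last k ≠ i.castSucc := fun i => (Fin.castSucc_lt_last i).ne'
    induction p using Fin.lastCases with
    | last =>
      induction q using Fin.lastCases with
      | last => exact absurd rfl hpq
      | cast b =>
        induction r using Fin.lastCases with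
        | last => exact absurd rfl hrp
        | cast c =>
          obtain ⟨i, hib, hic⟩ := sp1_exists_ne_ne hk b c
          exact hcn1 i _ _ _ (hl i) (hne i b hib) (hne i c hic)
    | cast a =>
      induction q using Fin.lastCases with
      | last =>
        induction r using Fin.lastCases with
        | last => exact absurd rfl hrq
        | cast c =>
          obtain ⟨i, hib, hic⟩ := sp1_exists_ne_ne hk a c
          exact hcn1 i _ _ _ (hne i a hib) (hl i) (hne i c hic)
      | cast b =>
        induction r using Fin.lastCases with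
        | last =>
          obtain ⟨i, hib, hic⟩ := sp1_exists_ne_ne hk a b
          exact hcn1 i _ _ _ (hne i a hib) (hne i b hic) (hl i)
        | cast c =>
          rw [hc, hc, hc, hc', hc', hc']
          exact jcolor1_cn (by omega) hv a b c
  unfold homW
  have hcond : (∀ i j, i ≠ j → G (ext v z i) (ext v z j) = true) ↔
      (∀ i j, i ≠ j → H (ext w (f z) i) (ext w (f z) j) = true) := by
    simp only [hadj]
  by_cases hG : ∀ i j, i ≠ j → G (ext v z i) (ext v z j) = true
  · rw [if_pos hG, if_pos (hcond.1 hG)]
    refine Finset.prod_congr rfl (fun h _ => ?_)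
    exact hcn _ _ _ h.2.1.ne h.2.2.1 h.2.2.2
  · rw [if_neg hG, if_neg (fun hH => hG (hcond.2 hH))]

end Crest.Agent.PLift
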