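import Crest.Agent.PLift.HomDefs

set_option autoImplicit false
set_option linter.unusedSectionVars false

namespace Crest.Agent.PLift

open Crest.WLRefine Crest.WLRefine.ParityLift Finset Crest.Agent.WLD

variable {n m t k : ℕ}

/-- CHUNK R290-P-SP2. PROOF. `scolor_succ_iff` (WLD/BF.lean): for each `i` a bijection with equal atomic types of
`update v i z`, `update w i (f z)`; for a triple of coordinates `a, b, c` choose `i ∉ {a,b,c}` (`k ≥ 4`). -/
theorem scolor1_homW (hk : 4 ≤ k) {G : Fin n → Fin n → Bool} {H : Fin m → Fin m → Bool}
    {v : Fin k → Fin n} {w : Fin k → Fin m} (h : scolor G k 1 v = scolor H k 1 w) :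
    homW G v = homW H w := by
  obtain ⟨h0, h1⟩ := (scolor_succ_iff 0 v w).1 h
  have hadj : ∀ i j, G (v i) (v j) = H (w i) (w j) := fun i j =>
    congrFun (congrFun (congrArg Prod.snd h0) i) j
  have hcn : ∀ a b c : Fin k, cn G (v a) (v b) (v c) = cn H (w a) (w b) (w c) := by
    intro a b c
    obtain ⟨i, hi⟩ : ∃ i : Fin k, i ∉ ({a, b, c} : Finset (Fin k)) := by
      by_contra hcon
      push Not at hcon
      have h1 : (univ : Finset (Fin k)).card ≤ ({a, b, c} : Finset (Fin k)).card :=
        Finset.card_le_card (fun x _ => hcon x)
      have h2 : ({a, b, c} : Finset (Fin k)).card ≤ 3 := Finset.card_le_three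
      rw [Finset.card_univ, Fintype.card_fin] at h1
      omega
    simp only [Finset.mem_insert, Finset.mem_singleton, not_or] at hi
    obtain ⟨f, hf⟩ := h1 i
    have key : ∀ (z : Fin n) (j : Fin k), i ≠ j → G z (v j) = H (f z) (w j) := by
      intro z j hj
      have := congrFun (congrFun (congrArg Prod.snd (hf z)) i) j
      have this' : G (Function.update v i z i) (Function.update v i z j) =
        H (Function.update w i (f z) i) (Function.update w i (f z) j) := this
      rwa [Function.update_self, Function.update_self, Function.update_of_ne hj.symm,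
        Function.update_of_ne hj.symm] at this'
    unfold cn
    refine Finset.card_equiv f fun z => ?_
    simp only [Finset.mem_filter, Finset.mem_univ, true_and]
    rw [key z a hi.1, key z b hi.2.1, key z c hi.2.2]
  unfold homW
  simp only [hadj, hcn]

end Crest.Agent.PLift
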