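import Crest.Agent.PLift.HomDefs

set_option autoImplicit false
set_option linter.unusedSectionVars false

namespace Crest.Agent.PLift

open Crest.WLRefine Crest.WLRefine.ParityLift Finset Crest.Agent.WLD

variable {n m t k : ℕ}

theorem asMatrix_equivFin {V : Type} [Fintype V] (adj : V → V → Bool) (a b : V) :
    asMatrix adj (Fintype.equivFin V a) (Fintype.equivFin V b) = adj a b := by
  simp [asMatrix]

theorem cn_asMatrix {V : Type} [Fintype V] (adj : V → V → Bool) (a b c : V) :
    cn (asMatrix adj) (Fintype.equivFin V a) (Fintype.equivFin V b) (Fintype.equivFin V c) =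
      ∑ z : V, if adj z a = true ∧ adj z b = true ∧ adj z c = true then 1 else 0 := by
  unfold cn
  rw [Finset.card_filter]
  refine (Fintype.sum_equiv (Fintype.equivFin V) _ _ (fun z => ?_)).symm
  rw [asMatrix_equivFin, asMatrix_equivFin, asMatrix_equivFin]

theorem cn_union_inl (G : Fin n → Fin n → Bool) (H : Fin m → Fin m → Bool) (a b c : Fin n) :
    cn (asMatrix (unionAdj G H)) (Fintype.equivFin _ (Sum.inl a)) (Fintype.equivFin _ (Sum.inl b))
      (Fintype.equivFin _ (Sum.inl c)) = cn G a b c := by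
  rw [cn_asMatrix, Fintype.sum_sum_type]
  unfold cn
  simp [unionAdj]
  rw [Finset.card_filter]
  exact Finset.sum_congr rfl (fun z _ => if_congr Iff.rfl rfl rfl)

theorem cn_union_inr (G : Fin n → Fin n → Bool) (H : Fin m → Fin m → Bool) (a b c : Fin m) :
    cn (asMatrix (unionAdj G H)) (Fintype.equivFin _ (Sum.inr a)) (Fintype.equivFin _ (Sum.inr b))
      (Fintype.equivFin _ (Sum.inr c)) = cn H a b c := by
  rw [cn_asMatrix, Fintype.sum_sum_type]
  unfold cn
  simp [unionAdj]
  rw [Finset.card_filter]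
  exact Finset.sum_congr rfl (fun z _ => if_congr Iff.rfl rfl rfl)

/-- CHUNK R290-P-SP3. In the disjoint union (`eU = Fintype.equivFin`) pure tuples have the same weights. PROOF: a common
neighbour of vertices of the first graph is in the first graph. -/
theorem homW_union_inl (G : Fin n → Fin n → Bool) (H : Fin m → Fin m → Bool) (x : Fin t → Fin n) :
    homW (asMatrix (unionAdj G H)) (Fintype.equivFin _ ∘ Sum.inl ∘ x) = homW G x := by
  unfold homW
  simp only [Function.comp_apply, asMatrix_equivFin, cn_union_inl, unionAdj]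

theorem homW_union_inr (G : Fin n → Fin n → Bool) (H : Fin m → Fin m → Bool) (x : Fin t → Fin m) :
    homW (asMatrix (unionAdj G H)) (Fintype.equivFin _ ∘ Sum.inr ∘ x) = homW H x := by
  unfold homW
  simp only [Function.comp_apply, asMatrix_equivFin, cn_union_inr, unionAdj]

theorem homW_eq_zero {G : Fin n → Fin n → Bool} {x : Fin t → Fin n} {i j : Fin t} (hij : i ≠ j)
    (h : G (x i) (x j) = false) : homW G x = 0 := by
  unfold homW
  rw [if_neg]
  intro h1
  rw [h1 i j hij] at h
  exact absurd h (by simp)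

theorem ext_comp {A : ℕ} (f : Fin n → Fin A) (v : Fin k → Fin n) (z : Fin n) :
    ext (f ∘ v) (f z) = f ∘ ext v z := by
  unfold ext
  exact (Fin.comp_snoc f v z).symm

/-- CHUNK R290-P-SP3. a vertex of the other graph is not adjacent to `v 0` -/
theorem sum_homW_union_inl (hk : 1 ≤ k) (G : Fin n → Fin n → Bool) (H : Fin m → Fin m → Bool)
    (v : Fin k → Fin n) :
    ∑ z, homW (asMatrix (unionAdj G H)) (ext (Fintype.equivFin _ ∘ Sum.inl ∘ v) z) =
      ∑ z, homW G (ext v z) := by
  rw [← Fintype.sum_equiv (Fintype.equivFin (Fin n ⊕ Fin m))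
    (fun z => homW (asMatrix (unionAdj G H)) (ext (Fintype.equivFin _ ∘ Sum.inl ∘ v)
      (Fintype.equivFin _ z))) _ (fun _ => rfl), Fintype.sum_sum_type]
  have h2 : ∀ z : Fin m, homW (asMatrix (unionAdj G H)) (ext (Fintype.equivFin _ ∘ Sum.inl ∘ v)
      (Fintype.equivFin _ (Sum.inr z))) = 0 := by
    intro z
    refine homW_eq_zero (i := Fin.castSucc ⟨0, hk⟩) (j := Fin.last k) ?_ ?_
    · exact (Fin.castSucc_lt_last _).ne
    · unfold ext
      rw [Fin.snoc_castSucc, Fin.snoc_last]
      simp only [Function.comp_apply, asMatrix_equivFin, unionAdj]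
  rw [Finset.sum_eq_zero (fun z _ => h2 z), add_zero]
  refine Finset.sum_congr rfl (fun z _ => ?_)
  rw [← homW_union_inl G H]
  congr 1
  exact ext_comp (fun a => Fintype.equivFin (Fin n ⊕ Fin m) (Sum.inl a)) v z

theorem sum_homW_union_inr (hk : 1 ≤ k) (G : Fin n → Fin n → Bool) (H : Fin m → Fin m → Bool)
    (v : Fin k → Fin m) :
    ∑ z, homW (asMatrix (unionAdj G H)) (ext (Fintype.equivFin _ ∘ Sum.inr ∘ v) z) =
      ∑ z, homW H (ext v z) := by
  rw [← Fintype.sum_equiv (Fintype.equivFin (Fin n ⊕ Fin m))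
    (fun z => homW (asMatrix (unionAdj G H)) (ext (Fintype.equivFin _ ∘ Sum.inr ∘ v)
      (Fintype.equivFin _ z))) _ (fun _ => rfl), Fintype.sum_sum_type]
  have h2 : ∀ z : Fin n, homW (asMatrix (unionAdj G H)) (ext (Fintype.equivFin _ ∘ Sum.inr ∘ v)
      (Fintype.equivFin _ (Sum.inl z))) = 0 := by
    intro z
    refine homW_eq_zero (i := Fin.castSucc ⟨0, hk⟩) (j := Fin.last k) ?_ ?_
    · exact (Fin.castSucc_lt_last _).ne
    · unfold ext
      rw [Fin.snoc_castSucc, Fin.snoc_last]
      simp only [Function.comp_apply, asMatrix_equivFin, unionAdj]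
  rw [Finset.sum_eq_zero (fun z _ => h2 z), zero_add]
  refine Finset.sum_congr rfl (fun z _ => ?_)
  rw [← homW_union_inr G H]
  congr 1
  exact ext_comp (fun a => Fintype.equivFin (Fin n ⊕ Fin m) (Sum.inr a)) v z

end Crest.Agent.PLift
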