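import Crest.Agent.PLift.Sp1
import Crest.Agent.PLift.Sp2
import Crest.Agent.PLift.Sp3

set_option autoImplicit false
set_option linter.unusedSectionVars false

namespace Crest.Agent.PLift

open Crest.WLRefine Crest.WLRefine.ParityLift Finset Crest.Agent.WLD

variable {n m t k : ℕ}

/-- CHUNK R290-P-SP4. `homT` as a sum over the last vertex (`Fin.snocEquiv` / `Fin.snoc_init_self`) -/
theorem homT_succ (G : Fin n → Fin n → Bool) :
    homT (k + 1) G = ∑ v : Fin k → Fin n, ∑ z, homW G (ext v z) := by
  have h := Fintype.sum_equiv (Fin.snocEquiv (fun _ : Fin (k + 1) => Fin n))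
    (fun p => homW G (ext p.2 p.1)) (fun x => homW G x) (fun _ => rfl)
  unfold homT
  rw [← h, Fintype.sum_prod_type_right]

/-- CHUNK R290-P-SP4. PROOF. Equal histograms give a colour preserving bijection of the tuples
(`exists_equiv_of_map_univ_eq`, WLD/BF.lean); use `jcolor2_homW` termwise and `homT_succ`. -/
theorem joint_hist_ne (hk : 3 ≤ k) {G : Fin n → Fin n → Bool} {H : Fin m → Fin m → Bool}
    (h : homT (k + 1) G ≠ homT (k + 1) H) :
    (Finset.univ.val.map (jcolor G k 2)) ≠ Finset.univ.val.map (jcolor H k 2) ∧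
      ¬ PureJHistEq k 2 G H := by
  constructor
  · intro heq
    obtain ⟨e, he⟩ := exists_equiv_of_map_univ_eq _ _ heq
    apply h
    rw [homT_succ, homT_succ]
    exact Fintype.sum_equiv e _ _ (fun v => jcolor2_homW hk (he v))
  · intro heq
    obtain ⟨e, he⟩ := exists_equiv_of_map_univ_eq _ _ heq
    apply h
    rw [homT_succ, homT_succ]
    refine Fintype.sum_equiv e _ _ (fun v => ?_)
    have h1 := jcolor2_homW hk (he v)
    rw [sum_homW_union_inl (by omega), sum_homW_union_inr (by omega)] at h1
    exact h1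

/-- CHUNK R290-P-SP4. -/
theorem sep_hist_ne (hk : 4 ≤ k) {G : Fin n → Fin n → Bool} {H : Fin m → Fin m → Bool}
    (h : homT k G ≠ homT k H) :
    (Finset.univ.val.map (scolor G k 1)) ≠ Finset.univ.val.map (scolor H k 1) ∧
      ¬ PureSHistEq k 1 G H := by
  constructor
  · intro heq
    obtain ⟨e, he⟩ := exists_equiv_of_map_univ_eq _ _ heq
    apply h
    exact Fintype.sum_equiv e _ _ (fun v => scolor1_homW hk (he v))
  · intro heq
    obtain ⟨e, he⟩ := exists_equiv_of_map_univ_eq _ _ heq
    apply h
    refine Fintype.sum_equiv e _ _ (fun v => ?_)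
    have h1 := scolor1_homW hk (he v)
    rw [homW_union_inl, homW_union_inr] at h1
    exact h1

end Crest.Agent.PLift
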