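import Crest.Agent.PLift.Sp3

set_option autoImplicit false
set_option linter.unusedSectionVars false

namespace Crest.Agent.PLift

open Crest.WLRefine Crest.WLRefine.ParityLift Finset Crest.Agent.WLD

variable {n m t k : ℕ}

/-- `x` is a clique and `p` gives common neighbours -/
def HomPair {V : Type} (adj : V → V → Bool) (x : Fin t → V) (p : Helper t → V) : Prop :=
  (∀ i j, i ≠ j → adj (x i) (x j) = true) ∧
    ∀ h : Helper t, adj (p h) (x h.1.1) = true ∧ adj (p h) (x h.1.2.1) = true ∧
      adj (p h) (x h.1.2.2) = true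

def homEquiv {V : Type} (adj : V → V → Bool) (hs : ∀ x y, adj x y = adj y x) :
    {ψ : TV t → V // IsHomT adj ψ} ≃ Σ x : Fin t → V, {p : Helper t → V // HomPair adj x p} where
  toFun ψ := ⟨fun i => ψ.1 (.inl i), ⟨fun h => ψ.1 (.inr h),
    fun i j hij => ψ.2 _ _ (decide_eq_true hij),
    fun h => ⟨ψ.2 _ _ (decide_eq_true (Or.inl rfl)), ψ.2 _ _ (decide_eq_true (Or.inr (Or.inl rfl))),
      ψ.2 _ _ (decide_eq_true (Or.inr (Or.inr rfl)))⟩⟩⟩
  invFun y := ⟨Sum.elim y.1 y.2.1, by
    rcases y with ⟨x, p, hp1, hp2⟩
    rintro (i | h) (j | h') hadj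
    · exact hp1 i j (of_decide_eq_true hadj)
    · show adj (x i) (p h') = true
      rw [hs]
      rcases (of_decide_eq_true hadj : i = h'.1.1 ∨ i = h'.1.2.1 ∨ i = h'.1.2.2) with e | e | e
      · rw [e]; exact (hp2 h').1
      · rw [e]; exact (hp2 h').2.1
      · rw [e]; exact (hp2 h').2.2
    · show adj (p h) (x j) = true
      rcases (of_decide_eq_true hadj : j = h.1.1 ∨ j = h.1.2.1 ∨ j = h.1.2.2) with e | e | e
      · rw [e]; exact (hp2 h).1
      · rw [e]; exact (hp2 h).2.1
      · rw [e]; exact (hp2 h).2.2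
    · exact absurd hadj (by simp [tAdj])⟩
  left_inv ψ := by
    apply Subtype.ext
    funext a
    rcases a with a | a <;> rfl
  right_inv y := rfl

theorem card_homPair {V : Type} [Fintype V] (adj : V → V → Bool) (x : Fin t → V) :
    Nat.card {p : Helper t → V // HomPair adj x p} =
      homW (asMatrix adj) (fun i => Fintype.equivFin V (x i)) := by
  classical
  unfold homW
  by_cases hc : ∀ i j, i ≠ j → adj (x i) (x j) = true
  · rw [if_pos (by intro i j hij; rw [asMatrix_equivFin]; exact hc i j hij)]
    have e : {p : Helper t → V // HomPair adj x p} ≃ ((h : Helper t) → {z : V //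
        adj z (x h.1.1) = true ∧ adj z (x h.1.2.1) = true ∧ adj z (x h.1.2.2) = true}) :=
      { toFun := fun p h => ⟨p.1 h, p.2.2 h⟩
        invFun := fun q => ⟨fun h => (q h).1, hc, fun h => (q h).2⟩
        left_inv := fun _ => rfl
        right_inv := fun _ => rfl }
    rw [Nat.card_congr e, Nat.card_pi]
    refine Finset.prod_congr rfl (fun h _ => ?_)
    rw [cn_asMatrix, Nat.card_eq_fintype_card, Fintype.card_subtype, Finset.card_filter]
  · rw [if_neg (by
      intro h
      apply hc
      intro i j hij
      have := h i j hij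
      rwa [asMatrix_equivFin] at this)]
    have : IsEmpty {p : Helper t → V // HomPair adj x p} := ⟨fun p => hc p.2.1⟩
    exact Nat.card_of_isEmpty

/-- CHUNK R290-P-SP5. PROOF. `TV t = Fin t ⊕ Helper t`; a homomorphism is a clique tuple of mains together with, for
each helper, a common neighbour of its three mains; `Fintype.equivFin V` transports `adj` to `asMatrix adj`. -/
theorem homT_eq_card {V : Type} [Fintype V] [DecidableEq V] (adj : V → V → Bool)
    (hs : ∀ x y, adj x y = adj y x) :
    homT t (asMatrix adj) = Nat.card {ψ : TV t → V // IsHomT adj ψ} := by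
  classical
  rw [Nat.card_congr (homEquiv adj hs), Nat.card_sigma]
  unfold homT
  refine (Fintype.sum_equiv (Equiv.arrowCongr (Equiv.refl (Fin t)) (Fintype.equivFin V)) _ _
    (fun x => ?_)).symm
  rw [card_homPair]
  rfl

end Crest.Agent.PLift
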