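import Crest.Agent.PLift.HomDefs

set_option autoImplicit false
set_option linter.unusedSectionVars false

namespace Crest.Agent.PLift

open Crest.WLRefine Crest.WLRefine.ParityLift Finset Crest.Agent.WLD

variable {n m t k : ℕ}

variable {C : ChoiceSystem t}

/-- homomorphisms into the lift as pairs -/
def homsEquiv (b : TV t → Bool) :
    {ψ : TV t → LiftV C b // IsHomT (liftAdj C b) ψ} ≃
      (Σ φ : {φ : TV t → BV C // BHom C φ}, {z // SolP b φ.1 z}) where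
  toFun ψ := ⟨⟨fun a => (ψ.1 a).1.1, fun a a' h => ((liftAdj_iff b _ _).1 (ψ.2 a a' h)).1⟩,
    ⟨fun a => (ψ.1 a).1.2, fun a => (card_mod_two_iff _ _).1 (ψ.1 a).2,
      fun a a' h h1 h2 => ((liftAdj_iff b _ _).1 (ψ.2 a a' h)).2 h1 h2⟩⟩
  invFun p := ⟨fun a => ⟨⟨p.1.1 a, p.2.1 a⟩, (card_mod_two_iff _ _).2 (p.2.2.1 a)⟩,
    fun a a' h => (liftAdj_iff b _ _).2 ⟨p.1.2 a a' h, fun h1 h2 => p.2.2.2 a a' h h1 h2⟩⟩
  left_inv ψ := rfl
  right_inv p := rfl

/-- CHUNK R290-P-SP6. PROOF. A homomorphism `ψ` into the lift is the pair of its base map `φ = base ∘ ψ` and the tags;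
(`liftAdj_iff`, `card_mod_two_iff`, `bAdj_tAdj`). -/
theorem card_homs_eq (b : TV t → Bool) :
    Nat.card {ψ : TV t → LiftV C b // IsHomT (liftAdj C b) ψ} =
      Nat.card (Σ φ : {φ : TV t → BV C // BHom C φ}, {z // SolP b φ.1 z}) :=
  Nat.card_congr (homsEquiv b)

end Crest.Agent.PLift
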