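import Crest.Agent.PLift.HomDefs

set_option autoImplicit false
set_option linter.unusedSectionVars false

namespace Crest.Agent.PLift

open Crest.WLRefine Crest.WLRefine.ParityLift Finset Crest.Agent.WLD

variable {n m t k : ℕ}

variable {C : ChoiceSystem t}

/-- CHUNK R290-P-SP7. an inhomogeneous system has at most as many solutions as the homogeneous one: adding
(xor) a fixed solution of the first is an injection into the second. -/
theorem card_sol_le (φ : TV t → BV C) :
    Nat.card {z // SolP (liftStarParity t) φ z} ≤ Nat.card {z // SolP (lift0Parity t) φ z} := by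
  by_cases hne : Nonempty {z // SolP (liftStarParity t) φ z}
  · obtain ⟨⟨z0, h0⟩⟩ := hne
    refine Nat.card_le_card_of_injective
      (fun z => (⟨fun a a' => xor (z.1 a a') (z0 a a'), ?_, ?_⟩ :
        {z // SolP (lift0Parity t) φ z})) ?_
    · intro a
      simp only [bz_xor]
      rw [Finset.sum_add_distrib, z.2.1 a, h0.1 a, zmod2_add_self]
      rfl
    · intro a a' ha h h'
      simp only
      rw [z.2.2 a a' ha h h', h0.2 a a' ha h h']
    · rintro ⟨z, hz⟩ ⟨z', hz'⟩ h
      have h1 := Subtype.ext_iff.1 h
      simp only at h1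
      refine Subtype.ext ?_
      funext a a'
      have h2 := congrFun (congrFun h1 a) a'
      simpa using h2
  · rw [not_nonempty_iff] at hne
    rw [Nat.card_of_isEmpty]
    exact Nat.zero_le _

private theorem sum_dite_sub {ι : Type*} [Fintype ι] (p : ι → Prop) [DecidablePred p]
    (f : {x // p x} → ZMod 2) :
    ∑ x, (if h : p x then f ⟨x, h⟩ else 0) = ∑ x : {x // p x}, f x := by
  have h1 : ∑ x : {x // p x}, f x =
      ∑ x : {x // p x}, (fun x : ι => if h : p x then f ⟨x, h⟩ else 0) x.1 := by
    refine Finset.sum_congr rfl (fun x _ => ?_)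
    show f x = if h : p x.1 then f ⟨x.1, h⟩ else 0
    rw [dif_pos x.2]
  rw [h1, ← Finset.sum_subtype (univ.filter p) (by intro x; simp)
    (fun x : ι => if h : p x then f ⟨x, h⟩ else 0)]
  rw [Finset.sum_filter]
  refine Finset.sum_congr rfl (fun x _ => ?_)
  by_cases h : p x
  · rw [if_pos h]
  · rw [if_neg h, dif_neg h]

/-- CHUNK R290-P-SP7. the section of a successful choice: `φ (inl i) = inl ⟨i, d i⟩`,
`φ (inr h) = inr ⟨h, lamL h.1.1 h.1.2.1 (d h.1.1)⟩` is a base homomorphism with `typeOf (φ a) = a`, the homogeneous
system has the solution 0, the odd one has none: `∑_a ∑_{a' ~ a} z a a' = 0` in `ZMod 2` (every edge twice,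
`z a a' = z a' a`) but `∑_a bz (star a) = 1` (`0 < t`). -/
theorem exists_strict (ht : 2 ≤ t) (hS : C.Successful) :
    ∃ φ : TV t → BV C, BHom C φ ∧ Nat.card {z // SolP (liftStarParity t) φ z} = 0 ∧
      0 < Nat.card {z // SolP (lift0Parity t) φ z} := by
  obtain ⟨d, hd⟩ := hS
  let φ : TV t → BV C := fun a => match a with
    | .inl i => .inl ⟨i, d i⟩
    | .inr h => .inr ⟨h, C.lamL h.1.1 h.1.2.1 (d h.1.1)⟩
  have hty : ∀ a, typeOf C (φ a) = a := by
    intro a
    rcases a with i | h <;> rfl
  have hhelp : ∀ (i : Fin t) (h : Helper t),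
      decide (i = h.1.1 ∨ i = h.1.2.1 ∨ i = h.1.2.2) = true →
      helperAgree C ⟨i, d i⟩ ⟨h, C.lamL h.1.1 h.1.2.1 (d h.1.1)⟩ = true := by
    intro i h hi
    rw [decide_eq_true_iff] at hi
    rw [helperAgree, decide_eq_true_iff]
    rcases hi with e | e | e
    · subst e
      exact Or.inl ⟨rfl, rfl⟩
    · subst e
      exact Or.inr (Or.inl ⟨rfl, hd _ _ h.2.1⟩)
    · exact Or.inr (Or.inr e)
  have hB : BHom C φ := by
    intro a a' haa
    rcases a with i | h <;> rcases a' with j | h'
    · have hij : i ≠ j := of_decide_eq_true haa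
      show (mainAgree C ⟨i, d i⟩ ⟨j, d j⟩ || mainAgree C ⟨j, d j⟩ ⟨i, d i⟩) = true
      rw [Bool.or_eq_true, mainAgree, mainAgree, decide_eq_true_iff, decide_eq_true_iff]
      rcases lt_or_gt_of_ne hij with hl | hl
      · exact Or.inl ⟨hl, hd _ _ hl⟩
      · exact Or.inr ⟨hl, hd _ _ hl⟩
    · exact hhelp i h' haa
    · exact hhelp j h haa
    · exact absurd haa (by show ¬ (false = true); simp)
  refine ⟨φ, hB, ?_, ?_⟩
  · have hemp : IsEmpty {z // SolP (liftStarParity t) φ z} := by
      refine ⟨?_⟩
      rintro ⟨z, hz1, hz2⟩
      let g : TV t → TV t → ZMod 2 := fun a a' =>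
        if h : tAdj (typeOf C (φ a)) a' = true then bz (z a ⟨a', h⟩) else 0
      have hg : ∀ a, ∑ a', g a a' = bz (liftStarParity t a) := by
        intro a
        have h1 := hz1 a
        have h2 : ∑ a', g a a' = ∑ a' : Nbr (typeOf C (φ a)), bz (z a a') :=
          sum_dite_sub (fun a' => tAdj (typeOf C (φ a)) a' = true) (fun a' => bz (z a a'))
        rw [h2, h1]
        exact congrArg (fun x => bz (liftStarParity t x)) (hty a)
      have hsym : ∀ a a', g a a' = g a' a := by
        intro a a'
        have key : ∀ (b b' : TV t) (hb : typeOf C (φ a) = b) (hb' : typeOf C (φ a') = b'),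
            (if h : tAdj (typeOf C (φ a)) b' = true then bz (z a ⟨b', h⟩) else 0) =
            (if h : tAdj (typeOf C (φ a')) b = true then bz (z a' ⟨b, h⟩) else 0) := by
          intro b b' hb hb'
          subst hb hb'
          by_cases h : tAdj (typeOf C (φ a)) (typeOf C (φ a')) = true
          · have h' : tAdj (typeOf C (φ a')) (typeOf C (φ a)) = true := by
              rw [tAdj_symm]; exact h
            have haa : tAdj a a' = true := by
              have := h
              rw [hty a, hty a'] at this
              exact this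
            rw [dif_pos h, dif_pos h', hz2 a a' haa h h']
          · have h' : ¬ tAdj (typeOf C (φ a')) (typeOf C (φ a)) = true := by
              rw [tAdj_symm]; exact h
            rw [dif_neg h, dif_neg h']
        exact key a a' (hty a) (hty a')
      have hdiag : ∀ a, g a a = 0 := by
        intro a
        simp only [g]
        rw [dif_neg]
        rw [hty a, tAdj_irrefl]
        simp
      have hsum0 : ∑ p : TV t × TV t, g p.1 p.2 = 0 := by
        refine Finset.sum_involution (fun p _ => (p.2, p.1)) ?_ ?_ ?_ ?_
        · intro p _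
          simp only
          rw [hsym p.2 p.1, zmod2_add_self]
        · intro p _ hp
          intro he
          apply hp
          have : p.1 = p.2 := (congrArg Prod.snd he)
          rw [this]; exact hdiag _
        · intro p _; exact Finset.mem_univ _
        · intro p _; rfl
      rw [Fintype.sum_prod_type] at hsum0
      simp only [hg] at hsum0
      have h1 : ∑ a : TV t, bz (liftStarParity t a) = 1 := by
        rw [Finset.sum_eq_single (Sum.inl ⟨0, by omega⟩ : TV t)]
        · have : liftStarParity t (Sum.inl ⟨0, by omega⟩ : TV t) = true := by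
            rw [liftStarParity, decide_eq_true_iff]
            exact ⟨by omega, rfl⟩
          rw [this]; rfl
        · intro b _ hb
          have : liftStarParity t b = false := by
            rw [liftStarParity, decide_eq_false_iff_not]
            rintro ⟨h0, hb'⟩
            exact hb hb'
          rw [this]; rfl
        · intro h; exact absurd (Finset.mem_univ _) h
      rw [h1] at hsum0
      exact one_ne_zero hsum0
    exact Nat.card_of_isEmpty
  · have : Nonempty {z // SolP (lift0Parity t) φ z} := by
      refine ⟨⟨fun _ _ => false, ?_, ?_⟩⟩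
      · intro a
        simp [lift0Parity]
      · intro a a' _ _ _
        rfl
    exact Nat.card_pos

end Crest.Agent.PLift
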