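import Crest.Agent.PLift.Sp5
import Crest.Agent.PLift.Sp6
import Crest.Agent.PLift.Sp7

set_option autoImplicit false
set_option linter.unusedSectionVars false

namespace Crest.Agent.PLift

open Crest.WLRefine Crest.WLRefine.ParityLift Finset Crest.Agent.WLD

variable {n m t k : ℕ}

private theorem homT_sum (C : ChoiceSystem t) (b : TV t → Bool)
    [Fintype {φ : TV t → BV C // BHom C φ}] :
    homT t (asMatrix (liftAdj C b)) =
      ∑ φ : {φ : TV t → BV C // BHom C φ}, Nat.card {z // SolP b φ.1 z} := by
  rw [homT_eq_card (liftAdj C b) (liftAdj_symm b), card_homs_eq, Nat.card_sigma]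

/-- CHUNK R290-P-SP8. PROOF. `homT_eq_card`, `card_homs_eq`, cardinality of a sigma type as a sum (all types finite),
`card_sol_le` termwise, strict at the `φ` of `exists_strict`. -/
theorem homT_ne (ht : 2 ≤ t) (C : ChoiceSystem t) (hS : C.Successful) :
    homT t (asMatrix (liftAdj C (lift0Parity t))) ≠
      homT t (asMatrix (liftAdj C (liftStarParity t))) := by
  classical
  letI : Fintype {φ : TV t → BV C // BHom C φ} := Fintype.ofFinite _
  rw [homT_sum C (lift0Parity t), homT_sum C (liftStarParity t)]
  apply ne_of_gt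
  obtain ⟨φ, hφ, h0, h1⟩ := exists_strict ht hS
  refine Finset.sum_lt_sum (fun ψ _ => card_sol_le ψ.1) ⟨⟨φ, hφ⟩, Finset.mem_univ _, ?_⟩
  show Nat.card {z // SolP (liftStarParity t) φ z} < Nat.card {z // SolP (lift0Parity t) φ z}
  rw [h0]
  exact h1

end Crest.Agent.PLift
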