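import Crest.Agent.PLift.MoveAll
import Crest.Agent.PLift.Cnt2
import Crest.Agent.PLift.Act

set_option autoImplicit false
set_option linter.unusedSectionVars false

namespace Crest.Agent.PLift

open Crest.WLRefine Crest.WLRefine.ParityLift Finset

variable {t : ℕ} {C : ChoiceSystem t}

/-- one Duplicator answer -/
theorem step (ht : 2 ≤ t) (hS : ¬ C.Successful) {b b' : TV t → Bool} (hb : ParDiff b b')
    (hb' : ParDiff b' b) (P : Finset (BV C)) (hP : P.card < t) {dt : Dat C} {D : Fin t × Fin t}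
    (hN : NS dt D) (hV : Valid C D P) :
    ∃ g : LiftV C b ≃ LiftV C b', ∀ u0 : BV C, ∃ (dt' : Dat C) (D' : Fin t × Fin t)
      (hN' : NS dt' D'), Valid C D' (insert u0 P) ∧ SameOn P dt dt' ∧
        ∀ x : LiftV C b, x.1.1 = u0 → g x = actFun hb hN' x := by
  have h1 : ∀ u0 : BV C, ∃ (dt' : Dat C) (D' : Fin t × Fin t), NS dt' D' ∧
      Valid C D' (insert u0 P) ∧ SameOn P dt dt' := by
    intro u0
    obtain ⟨D', hne, hV'⟩ := exists_valid ht hS (insert u0 P)
      ((Finset.card_insert_le _ _).trans (by omega))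
    have hV2 : Valid C D' P := fun u hu v hv h => hV' u (mem_insert_of_mem hu) v (mem_insert_of_mem hv) h
    obtain ⟨dt', hN', hs⟩ := move_all P hP hN hV hne hV2
    exact ⟨dt', D', hN', hV', hs⟩
  choose F Df hF hFV hFs using h1
  obtain ⟨g, hg⟩ := exists_fibre_equiv hb hb' F Df hF
  refine ⟨g, fun u0 => ⟨F u0, Df u0, hF u0, hFV u0, hFs u0, fun x hx => ?_⟩⟩
  subst hx
  exact hg x

end Crest.Agent.PLift
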