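import Crest.Agent.PLift.Adj

set_option autoImplicit false
set_option linter.unusedSectionVars false
set_option linter.unusedDecidableInType false

namespace Crest.Agent.PLift

open Crest.WLRefine Crest.WLRefine.ParityLift Finset

variable {t : ℕ} {C : ChoiceSystem t}

/-- the toggled data: `r g += 1`, `A m l += 1` (`m` = third type of `g`), and `p g q += 1` for `q ∈ Q` -/
def toggle (dt : Dat C) (g : Helper t) (l : Fin t) (Q : Finset (Fin (C.lab g.1.1 g.1.2.1))) : Dat C where
  A i j := dt.A i j + if i = g.1.2.2 ∧ j = l then 1 else 0
  r h := dt.r h + if h = g then 1 else 0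
  p h q := dt.p h q + if e : g = h then (if q ∈ e ▸ Q then 1 else 0) else 0

end Crest.Agent.PLift
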